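import Mathlib

/-!
# From finite transcendence degree to a scalar algebraic ODE
-/

namespace Vale.Agent.P097.H367.FR

open MvPolynomial Cardinal

section trdeg

variable {K M : Type*} [Field K] [Field M] [Algebra K M]

/-- A bound for independent families of a field holds for elements algebraic over it. -/
lemma alg_le {F : IntermediateField K M} {N : ℕ}
    (hN : ∀ (m : ℕ) (f : Fin m → M), (∀ i, f i ∈ F) → AlgebraicIndependent K f → m ≤ N)
    {m : ℕ} (f : Fin m → M) (hf : ∀ i, IsAlgebraic F (f i)) (hi : AlgebraicIndependent K f) :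
    m ≤ N := by
  have h1 : Algebra.trdeg K F ≤ N := by
    refine ciSup_le' fun s => Cardinal.card_le_of fun t => ?_
    have hs : AlgebraicIndependent K ((↑) : s.1 → F) := s.2
    have hs2 : AlgebraicIndependent K (fun i : Fin t.card => ((t.equivFin.symm i).1 : F)) :=
      hs.comp (fun i : Fin t.card => ((t.equivFin.symm i).1 : s.1))
        (Subtype.val_injective.comp t.equivFin.symm.injective)
    have hs3 := hs2.map' (f := F.val) F.val.toRingHom.injective
    exact hN t.card _ (fun i => SetLike.coe_mem _) hs3
  let A : IntermediateField F M := algebraicClosure F M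
  have hFA : FaithfulSMul F A :=
    (faithfulSMul_iff_algebraMap_injective F A).2 (algebraMap F A).injective
  have h2 : Algebra.trdeg K F + Algebra.trdeg F A = Algebra.trdeg K A := trdeg_add_eq K F
  rw [trdeg_eq_zero (R := F) (A := A), add_zero] at h2
  let g : Fin m → A := fun i => ⟨f i, mem_algebraicClosure_iff.2 (hf i)⟩
  have hg : AlgebraicIndependent K g := by
    refine AlgebraicIndependent.of_comp (A.val.restrictScalars K) ?_
    exact hi
  have h3 := hg.lift_cardinalMk_le_trdeg
  rw [Cardinal.mk_fin, Cardinal.lift_natCast, ← h2, Cardinal.lift_uzero] at h3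
  exact_mod_cast le_trans h3 h1

end trdeg

section ode

variable {K M : Type*} [Field K] [CommRing M] [Algebra K M]

lemma totalDegree_pderiv_lt {σ : Type*} (i : σ) (S : MvPolynomial σ K)
    (h : pderiv i S ≠ 0) : (pderiv i S).totalDegree < S.totalDegree := by
  classical
  obtain ⟨m, hm, hd⟩ : ∃ m ∈ (pderiv i S).support, (pderiv i S).totalDegree =
      m.sum fun _ e => e := by
    have hne : (pderiv i S).support.Nonempty := support_nonempty.2 h
    obtain ⟨m, hm, hd⟩ := Finset.exists_mem_eq_sup _ hne (fun s : σ →₀ ℕ => s.sum fun _ e => e)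
    exact ⟨m, hm, hd⟩
  have h1 : m + Finsupp.single i 1 ∈ S.support := by
    rw [mem_support_iff] at hm ⊢
    rw [coeff_pderiv] at hm
    exact left_ne_zero_of_mul hm
  have h2 := le_totalDegree h1
  rw [Finsupp.sum_add_index' (fun _ => rfl) (fun _ _ _ => rfl),
    Finsupp.sum_single_index rfl] at h2
  omega

lemma notMem_vars_of_pderiv_eq_zero [CharZero K] {σ : Type*} (i : σ) (S : MvPolynomial σ K)
    (h : pderiv i S = 0) : i ∉ S.vars := by
  classical
  intro hi
  obtain ⟨d, hd, hid⟩ := (mem_vars_iff_mem_support i).1 hi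
  have hpos : d i ≠ 0 := Finsupp.mem_support_iff.1 hid
  have h1 : d = (d - Finsupp.single i 1) + Finsupp.single i 1 := by
    ext j
    by_cases hj : j = i
    · subst hj
      simp only [Finsupp.coe_add, Finsupp.coe_tsub, Pi.add_apply, Pi.sub_apply,
        Finsupp.single_eq_same]
      omega
    · simp [Ne.symm hj]
  have h2 := coeff_pderiv (i := i) S (d - Finsupp.single i 1)
  rw [h, coeff_zero, ← h1] at h2
  rw [mem_support_iff] at hd
  rcases mul_eq_zero.1 h2.symm with h3 | h3
  · exact hd h3
  · exact Nat.cast_add_one_ne_zero _ h3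

/-- **A scalar algebraic ODE with separant.** -/
theorem exists_ode [CharZero K] [Nontrivial M] (y : ℕ → M) {N : ℕ}
    (hN : ∀ m : ℕ, AlgebraicIndependent K (fun i : Fin m => y i) → m ≤ N) :
    ∃ m ≤ N, AlgebraicIndependent K (fun i : Fin m => y i) ∧
      ∃ S : MvPolynomial (Fin (m + 1)) K, aeval (fun i : Fin (m + 1) => y i) S = 0 ∧
        aeval (fun i : Fin (m + 1) => y i) (pderiv (Fin.last m) S) ≠ 0 := by
  classical
  have hex : ∃ m, ¬ AlgebraicIndependent K (fun i : Fin (m + 1) => y i) := by
    refine ⟨N, fun h => ?_⟩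
    have := hN (N + 1) h
    omega
  let m := Nat.find hex
  have hm := Nat.find_spec hex
  have hind : AlgebraicIndependent K (fun i : Fin m => y i) := by
    rcases Nat.eq_zero_or_pos m with h0 | h0
    · have : IsEmpty (Fin m) := by
        rw [h0]
        infer_instance
      exact algebraicIndependent_empty_type_iff.2 (algebraMap K M).injective
    · have h1 := Nat.find_min hex (show m - 1 < Nat.find hex by
        have : m = Nat.find hex := rfl
        omega)
      rw [not_not] at h1
      have h2 : m - 1 + 1 = m := by omega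
      rw [h2] at h1
      exact h1
  refine ⟨m, hN m hind, hind, ?_⟩
  -- a nonzero relation of least total degree
  have hrel : ∃ d : ℕ, ∃ S : MvPolynomial (Fin (m + 1)) K, S ≠ 0 ∧
      aeval (fun i : Fin (m + 1) => y i) S = 0 ∧ S.totalDegree = d := by
    have h1 : ¬ AlgebraicIndependent K (fun i : Fin (m + 1) => y i) := hm
    rw [algebraicIndependent_iff] at h1
    push Not at h1
    obtain ⟨S, hS, hS0⟩ := h1
    exact ⟨_, S, hS0, hS, rfl⟩
  obtain ⟨S, hS0, hS, hd⟩ := Nat.find_spec hrel
  refine ⟨S, hS, fun h0 => ?_⟩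
  by_cases hp : pderiv (Fin.last m) S = 0
  · have hv := notMem_vars_of_pderiv_eq_zero _ _ hp
    obtain ⟨S', hS'⟩ := exists_rename_eq_of_vars_subset_range S (Fin.castSucc (n := m))
      (Fin.castSucc_injective m) (by
        intro i hi
        have hne : i ≠ Fin.last m := fun h => hv (h ▸ hi)
        exact ⟨i.castPred hne, Fin.castSucc_castPred i hne⟩)
    rw [← hS', aeval_rename] at hS
    have h2 := (algebraicIndependent_iff.1 hind) S' hS
    apply hS0
    rw [← hS', h2, map_zero]
  · have hlt := totalDegree_pderiv_lt _ _ hp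
    rw [hd] at hlt
    exact Nat.find_min hrel hlt ⟨_, hp, h0, rfl⟩

end ode

end Vale.Agent.P097.H367.FR
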