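import Mathlib

/-!
# The web lemma (finite rank)

`F` a field, `Ω` an `F`-vector space with a flat connection `D₁, D₂` over two derivations of `F`;
vector fields `V_A = D₁ + λ_A D₂` with pairwise different `λ_A`; elements `η_A` with
`V_A^{m_A} η_A` of lower order and `Σ η_A` horizontal.  Then the `η_A` lie in a finite dimensional
subspace stable under `D₁, D₂`.
-/

namespace Vale.Agent.P097.H367.FR

open Polynomial Finset

/-- A flat connection over two maps `d₁, d₂` of the field. -/
structure Conn (F Ω : Type*) [Field F] [AddCommGroup Ω] [Module F Ω] where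
  d1 : F → F
  d2 : F → F
  D1 : Ω →+ Ω
  D2 : Ω →+ Ω
  leib1 : ∀ a v, D1 (a • v) = d1 a • v + a • D1 v
  leib2 : ∀ a v, D2 (a • v) = d2 a • v + a • D2 v
  comm : ∀ v, D1 (D2 v) = D2 (D1 v)

variable {F Ω : Type*} [Field F] [AddCommGroup Ω] [Module F Ω] (c : Conn F Ω)

namespace Conn

/-- The span of all derivatives of order `< m` of the elements of `S`. -/
def L (m : ℕ) (S : Set Ω) : Submodule F Ω :=
  Submodule.span F {x | ∃ v ∈ S, ∃ i j, i + j < m ∧ x = c.D1^[i] (c.D2^[j] v)}

lemma L_mono {m m' : ℕ} (h : m ≤ m') {S S' : Set Ω} (hS : S ⊆ S') : c.L m S ≤ c.L m' S' := by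
  apply Submodule.span_mono
  rintro x ⟨v, hv, i, j, hij, rfl⟩
  exact ⟨v, hS hv, i, j, by omega, rfl⟩

lemma mem_L {m i j : ℕ} {S : Set Ω} {v : Ω} (hv : v ∈ S) (h : i + j < m) :
    c.D1^[i] (c.D2^[j] v) ∈ c.L m S :=
  Submodule.subset_span ⟨v, hv, i, j, h, rfl⟩

lemma comm_iter (i : ℕ) (v : Ω) : c.D2 (c.D1^[i] v) = c.D1^[i] (c.D2 v) := by
  induction i generalizing v with
  | zero => rfl
  | succ n ih =>
    rw [Function.iterate_succ_apply, Function.iterate_succ_apply, ih, c.comm]

lemma D1_L {m : ℕ} {S : Set Ω} {x : Ω} (hx : x ∈ c.L m S) : c.D1 x ∈ c.L (m + 1) S := by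
  induction hx using Submodule.span_induction with
  | mem x hx =>
    obtain ⟨v, hv, i, j, hij, rfl⟩ := hx
    rw [← Function.iterate_succ_apply' c.D1]
    exact c.mem_L hv (by omega)
  | zero => simp
  | add x y _ _ hx hy => rw [map_add]; exact Submodule.add_mem _ hx hy
  | smul a x hx hx' =>
    rw [c.leib1]
    exact Submodule.add_mem _ (Submodule.smul_mem _ _ (c.L_mono (Nat.le_succ m) subset_rfl hx))
      (Submodule.smul_mem _ _ hx')

lemma D2_L {m : ℕ} {S : Set Ω} {x : Ω} (hx : x ∈ c.L m S) : c.D2 x ∈ c.L (m + 1) S := by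
  induction hx using Submodule.span_induction with
  | mem x hx =>
    obtain ⟨v, hv, i, j, hij, rfl⟩ := hx
    rw [c.comm_iter, ← Function.iterate_succ_apply' c.D2]
    exact c.mem_L hv (by omega)
  | zero => simp
  | add x y _ _ hx hy => rw [map_add]; exact Submodule.add_mem _ hx hy
  | smul a x hx hx' =>
    rw [c.leib2]
    exact Submodule.add_mem _ (Submodule.smul_mem _ _ (c.L_mono (Nat.le_succ m) subset_rfl hx))
      (Submodule.smul_mem _ _ hx')

lemma iter_L {m : ℕ} {S : Set Ω} {x : Ω} (hx : x ∈ c.L m S) (i j : ℕ) :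
    c.D1^[i] (c.D2^[j] x) ∈ c.L (m + (i + j)) S := by
  have h2 : c.D2^[j] x ∈ c.L (m + j) S := by
    induction j with
    | zero => simpa using hx
    | succ n ih => rw [Function.iterate_succ_apply']; exact c.D2_L ih
  have h1 : ∀ i, c.D1^[i] (c.D2^[j] x) ∈ c.L (m + j + i) S := by
    intro i
    induction i with
    | zero => simpa using h2
    | succ n ih => rw [Function.iterate_succ_apply']; exact c.D1_L ih
  have := h1 i
  rwa [show m + j + i = m + (i + j) by ring] at this

/-- The operator with symbol `P` (a form of degree `m` in `D₁, D₂`, dehomogenised). -/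
def symb (m : ℕ) (P : F[X]) (v : Ω) : Ω :=
  ∑ i ∈ range (m + 1), P.coeff i • c.D1^[i] (c.D2^[m - i] v)

lemma symb_mem {m k : ℕ} {S : Set Ω} {v : Ω} (P : F[X]) (hv : v ∈ c.L k S) :
    c.symb m P v ∈ c.L (k + m) S := by
  apply Submodule.sum_mem
  intro i hi
  have hi' : i ≤ m := by simpa [Nat.lt_succ_iff] using hi
  apply Submodule.smul_mem
  have := c.iter_L hv i (m - i)
  rwa [show i + (m - i) = m by omega] at this

lemma self_mem {S : Set Ω} {v : Ω} (hv : v ∈ S) : v ∈ c.L 1 S := by
  have := c.mem_L (m := 1) (i := 0) (j := 0) hv (by norm_num)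
  simpa using this

lemma symb_mem' {m : ℕ} {S : Set Ω} {v : Ω} (P : F[X]) (hv : v ∈ S) :
    c.symb m P v ∈ c.L (m + 1) S := by
  have := c.symb_mem (m := m) P (c.self_mem hv)
  rwa [add_comm] at this

lemma symb_add (m : ℕ) (P Q : F[X]) (v : Ω) :
    c.symb m (P + Q) v = c.symb m P v + c.symb m Q v := by
  simp [symb, add_smul, sum_add_distrib]

lemma symb_sub_right (m : ℕ) (P : F[X]) (v w : Ω) :
    c.symb m P (v - w) = c.symb m P v - c.symb m P w := by
  have h1 : ∀ i (x y : Ω), c.D1^[i] (x - y) = c.D1^[i] x - c.D1^[i] y := by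
    intro i
    induction i with
    | zero => intros; rfl
    | succ n ih => intro x y; simp only [Function.iterate_succ_apply]; rw [map_sub, ih]
  have h2 : ∀ i (x y : Ω), c.D2^[i] (x - y) = c.D2^[i] x - c.D2^[i] y := by
    intro i
    induction i with
    | zero => intros; rfl
    | succ n ih => intro x y; simp only [Function.iterate_succ_apply]; rw [map_sub, ih]
  simp [symb, h1, h2, smul_sub, sum_sub_distrib]

lemma symb_sum_right {ι : Type*} (s : Finset ι) (m : ℕ) (P : F[X]) (v : ι → Ω) :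
    c.symb m P (∑ a ∈ s, v a) = ∑ a ∈ s, c.symb m P (v a) := by
  have h1 : ∀ i (f : ι → Ω), c.D1^[i] (∑ a ∈ s, f a) = ∑ a ∈ s, c.D1^[i] (f a) := by
    intro i
    induction i with
    | zero => intros; rfl
    | succ n ih => intro x; simp only [Function.iterate_succ_apply]; rw [map_sum, ih]
  have h2 : ∀ i (f : ι → Ω), c.D2^[i] (∑ a ∈ s, f a) = ∑ a ∈ s, c.D2^[i] (f a) := by
    intro i
    induction i with
    | zero => intros; rfl
    | succ n ih => intro x; simp only [Function.iterate_succ_apply]; rw [map_sum, ih]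
  simp only [symb, h1, h2, smul_sum]
  rw [sum_comm]

lemma symb_zero_right (m : ℕ) (P : F[X]) : c.symb m P 0 = 0 := by
  have := c.symb_sub_right m P 0 0
  simpa using this

lemma symb_X_pow (m i : ℕ) (hi : i ≤ m) (v : Ω) :
    c.symb m (X ^ i) v = c.D1^[i] (c.D2^[m - i] v) := by
  rw [symb, sum_eq_single i]
  · simp
  · intro b _ hb; simp [coeff_X_pow, hb]
  · intro h; exact absurd (mem_range.2 (Nat.lt_succ_of_le hi)) h

lemma D1_symb (m : ℕ) (P : F[X]) (v : Ω) :
    c.D1 (c.symb m P v) - c.symb (m + 1) (X * P) v ∈ c.L (m + 1) {v} := by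
  have h : c.D1 (c.symb m P v) - c.symb (m + 1) (X * P) v =
      ∑ i ∈ range (m + 1), c.d1 (P.coeff i) • c.D1^[i] (c.D2^[m - i] v) := by
    rw [symb, symb, sum_range_succ' _ (m + 1), map_sum, sub_eq_iff_eq_add]
    simp only [c.leib1, sum_add_distrib, coeff_X_mul, coeff_X_mul_zero, zero_smul, add_zero]
    congr 1
    apply sum_congr rfl
    intro i _
    rw [← Function.iterate_succ_apply' c.D1, show m + 1 - (i + 1) = m - i by omega]
  rw [h]
  apply Submodule.sum_mem
  intro i hi
  apply Submodule.smul_mem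
  exact c.mem_L (Set.mem_singleton v) (by have := mem_range.1 hi; omega)

lemma D2_symb (m : ℕ) (P : F[X]) (hP : P.natDegree ≤ m) (v : Ω) :
    c.D2 (c.symb m P v) - c.symb (m + 1) P v ∈ c.L (m + 1) {v} := by
  have h : c.D2 (c.symb m P v) - c.symb (m + 1) P v =
      ∑ i ∈ range (m + 1), c.d2 (P.coeff i) • c.D1^[i] (c.D2^[m - i] v) := by
    rw [symb, symb, sum_range_succ _ (m + 1), map_sum, sub_eq_iff_eq_add]
    rw [coeff_eq_zero_of_natDegree_lt (Nat.lt_succ_of_le hP)]
    simp only [c.leib2, sum_add_distrib, zero_smul, add_zero]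
    congr 1
    apply sum_congr rfl
    intro i hi
    have hi' : i ≤ m := by simpa [Nat.lt_succ_iff] using hi
    rw [c.comm_iter, ← Function.iterate_succ_apply' c.D2,
      show (m - i).succ = m + 1 - i by omega]
  rw [h]
  apply Submodule.sum_mem
  intro i hi
  apply Submodule.smul_mem
  exact c.mem_L (Set.mem_singleton v) (by have := mem_range.1 hi; omega)

lemma iter_symb (k : ℕ) (P : F[X]) (hP : P.natDegree ≤ k) (i j : ℕ) (v : Ω) :
    c.D1^[i] (c.D2^[j] (c.symb k P v)) - c.symb (k + (i + j)) (X ^ i * P) v ∈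
      c.L (k + (i + j)) {v} := by
  have h2 : ∀ j, c.D2^[j] (c.symb k P v) - c.symb (k + j) P v ∈ c.L (k + j) {v} := by
    intro j
    induction j with
    | zero => simp
    | succ n ih =>
      rw [Function.iterate_succ_apply']
      have h1 := c.D2_L ih
      rw [map_sub] at h1
      have h3 := c.D2_symb (k + n) P (by omega) v
      have := Submodule.add_mem _ h1 h3
      simpa [add_assoc] using this
  have h1 : ∀ i, c.D1^[i] (c.D2^[j] (c.symb k P v)) - c.symb (k + j + i) (X ^ i * P) v ∈
      c.L (k + j + i) {v} := by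
    intro i
    induction i with
    | zero => simpa using h2 j
    | succ n ih =>
      rw [Function.iterate_succ_apply']
      have h1 := c.D1_L ih
      rw [map_sub] at h1
      have h3 := c.D1_symb (k + j + n) (X ^ n * P) v
      have := Submodule.add_mem _ h1 h3
      rw [sub_add_sub_cancel, ← mul_assoc, ← pow_succ'] at this
      exact this
  have := h1 i
  rwa [show k + j + i = k + (i + j) by ring] at this

/-- The vector field `D₁ + λ D₂`. -/
def V (l : F) (v : Ω) : Ω := c.D1 v + l • c.D2 v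

lemma V_L {m : ℕ} {S : Set Ω} (l : F) {x : Ω} (hx : x ∈ c.L m S) : c.V l x ∈ c.L (m + 1) S :=
  Submodule.add_mem _ (c.D1_L hx) (Submodule.smul_mem _ _ (c.D2_L hx))

lemma V_symb (m : ℕ) (P : F[X]) (hP : P.natDegree ≤ m) (l : F) (v : Ω) :
    c.V l (c.symb m P v) - c.symb (m + 1) ((X + C l) * P) v ∈ c.L (m + 1) {v} := by
  have h1 := c.D1_symb m P v
  have h2 := Submodule.smul_mem _ l (c.D2_symb m P hP v)
  have h3 : c.symb (m + 1) (C l * P) v = l • c.symb (m + 1) P v := by
    simp [symb, smul_sum, mul_smul]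
  have := Submodule.add_mem _ h1 h2
  rw [add_mul, symb_add, h3]
  have e : c.V l (c.symb m P v) - (c.symb (m + 1) (X * P) v + l • c.symb (m + 1) P v) =
      c.D1 (c.symb m P v) - c.symb (m + 1) (X * P) v +
        l • (c.D2 (c.symb m P v) - c.symb (m + 1) P v) := by
    rw [V, smul_sub]
    abel
  rw [e]
  exact this

lemma V_iter (l : F) (k : ℕ) (v : Ω) :
    (c.V l)^[k] v - c.symb k ((X + C l) ^ k) v ∈ c.L k {v} := by
  induction k with
  | zero => simp [symb]
  | succ n ih =>
    rw [Function.iterate_succ_apply']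
    have h1 := c.V_L l ih
    have h2 := c.V_symb n ((X + C l) ^ n) (by
      refine (natDegree_pow_le).trans ?_
      simp) l v
    have := Submodule.add_mem _ h1 h2
    rw [← pow_succ'] at this
    have e : c.V l ((c.V l)^[n] v) - c.symb (n + 1) ((X + C l) ^ (n + 1)) v =
        c.V l ((c.V l)^[n] v - c.symb n ((X + C l) ^ n) v) +
        (c.V l (c.symb n ((X + C l) ^ n) v) - c.symb (n + 1) ((X + C l) ^ (n + 1)) v) := by
      simp only [V, map_sub, smul_sub]
      abel
    rw [e]
    exact this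

lemma symb_V_iter (a k : ℕ) (Q : F[X]) (l : F) (v : Ω) :
    c.symb a Q ((c.V l)^[k] v) - c.symb (a + k) (∑ i ∈ range (a + 1), C (Q.coeff i) *
      (X ^ i * (X + C l) ^ k)) v ∈ c.L (a + k) {v} := by
  have h0 := c.symb_mem (m := a) Q (c.V_iter l k v)
  rw [symb_sub_right, add_comm k a] at h0
  have h1 : c.symb a Q (c.symb k ((X + C l) ^ k) v) - c.symb (a + k) (∑ i ∈ range (a + 1),
      C (Q.coeff i) * (X ^ i * (X + C l) ^ k)) v ∈ c.L (a + k) {v} := by
    have h2 : c.symb (a + k) (∑ i ∈ range (a + 1), C (Q.coeff i) *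
        (X ^ i * (X + C l) ^ k)) v =
        ∑ i ∈ range (a + 1), Q.coeff i • c.symb (a + k) (X ^ i * (X + C l) ^ k) v := by
      simp only [symb, finsetSum_coeff, coeff_C_mul, sum_smul, smul_sum, mul_smul]
      rw [sum_comm]
    rw [h2]
    nth_rewrite 1 [symb]
    rw [← sum_sub_distrib]
    apply Submodule.sum_mem
    intro i hi
    have hi' : i ≤ a := by simpa [Nat.lt_succ_iff] using hi
    rw [← smul_sub]
    apply Submodule.smul_mem
    have := c.iter_symb k ((X + C l) ^ k) (by
      refine (natDegree_pow_le).trans ?_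
      simp) i (a - i) v
    rwa [show k + (i + (a - i)) = a + k by omega] at this
  have := Submodule.add_mem _ h0 h1
  simpa using this

lemma sum_C_mul (a : ℕ) (Q R : F[X]) (hQ : Q.natDegree ≤ a) :
    ∑ i ∈ range (a + 1), C (Q.coeff i) * (X ^ i * R) = Q * R := by
  conv_rhs => rw [Q.as_sum_range' (a + 1) (Nat.lt_succ_of_le hQ)]
  rw [sum_mul]
  apply sum_congr rfl
  intro i _
  rw [← C_mul_X_pow_eq_monomial, mul_assoc]

/-- Symbols divisible by `(X + λ)^k` are of lower order, if `V^k v` is. -/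
lemma symb_mem_of_dvd {S : Set Ω} {v : Ω} (hv : v ∈ S) (l : F) (k : ℕ)
    (h : (c.V l)^[k] v ∈ c.L k S) (a : ℕ) (Q : F[X]) (hQ : Q.natDegree ≤ a) :
    c.symb (a + k) (Q * (X + C l) ^ k) v ∈ c.L (a + k) S := by
  have h1 := c.symb_V_iter a k Q l v
  rw [sum_C_mul a Q _ hQ] at h1
  have h2 := c.symb_mem (m := a) Q h
  rw [add_comm k a] at h2
  have h3 := c.L_mono le_rfl (Set.singleton_subset_iff.2 hv) h1
  have := Submodule.sub_mem _ h2 h3
  simpa using this

lemma symb_horiz {m : ℕ} (hm : 1 ≤ m) (P : F[X]) {v : Ω} (h1 : c.D1 v = 0) (h2 : c.D2 v = 0) :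
    c.symb m P v = 0 := by
  have z1 : ∀ i, c.D1^[i] (0 : Ω) = 0 := by
    intro i
    induction i with
    | zero => rfl
    | succ n ih => rw [Function.iterate_succ_apply, map_zero, ih]
  rw [symb]
  apply sum_eq_zero
  intro i hi
  have hi' : i ≤ m := by simpa [Nat.lt_succ_iff] using hi
  by_cases h : i = m
  · subst h
    obtain ⟨n, rfl⟩ : ∃ n, i = n + 1 := ⟨i - 1, by omega⟩
    simp only [Nat.sub_self, Function.iterate_zero, id, Function.iterate_succ_apply, h1, z1,
      smul_zero]
  · obtain ⟨n, hn⟩ : ∃ n, m - i = n + 1 := ⟨m - i - 1, by omega⟩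
    have z2 : ∀ i, c.D2^[i] (0 : Ω) = 0 := by
      intro i
      induction i with
      | zero => rfl
      | succ n ih => rw [Function.iterate_succ_apply, map_zero, ih]
    rw [hn, Function.iterate_succ_apply, h2, z2, z1, smul_zero]

/-- **Web lemma.** -/
theorem web {ι : Type*} [Fintype ι] [DecidableEq ι] (l : ι → F) (hl : Function.Injective l)
    (k : ι → ℕ) (η : ι → Ω)
    (hη : ∀ a, (c.V (l a))^[k a] (η a) ∈ c.L (k a) (Set.range η))
    (h1 : c.D1 (∑ a, η a) = 0) (h2 : c.D2 (∑ a, η a) = 0) :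
    c.L (∑ a, k a + 1 + 1) (Set.range η) ≤ c.L (∑ a, k a + 1) (Set.range η) := by
  set M : ℕ := ∑ a, k a + 1 with hM
  set S : Set Ω := Set.range η with hS
  have key : ∀ a, ∀ P : F[X], P.natDegree ≤ M → c.symb M P (η a) ∈ c.L M S := by
    intro a P hP
    -- divisibility
    have hdvd : ∀ b, ∀ Q : F[X], (Q * (X + C (l b)) ^ k b).natDegree ≤ M →
        c.symb M (Q * (X + C (l b)) ^ k b) (η b) ∈ c.L M S := by
      intro b Q hQ
      have hkb : k b ≤ M := by
        have := single_le_sum (f := k) (fun i _ => Nat.zero_le _) (mem_univ b)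
        omega
      have hmon : ((X + C (l b)) ^ k b).Monic := (monic_X_add_C _).pow _
      have hQ' : Q.natDegree ≤ M - k b := by
        rcases eq_or_ne Q 0 with h0 | h0
        · simp [h0]
        · rw [mul_comm, hmon.natDegree_mul' h0, natDegree_pow, natDegree_X_add_C] at hQ
          omega
      have := c.symb_mem_of_dvd (Set.mem_range_self b : η b ∈ S) (l b) (k b) (hη b) (M - k b) Q hQ'
      rwa [Nat.sub_add_cancel hkb] at this
    set G : F[X] := ∏ b ∈ univ.erase a, (X + C (l b)) ^ k b with hG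
    have hcop : IsCoprime ((X + C (l a)) ^ k a) G := by
      apply IsCoprime.prod_right
      intro b hb
      apply IsCoprime.pow
      have hne : l a ≠ l b := fun h => (Finset.ne_of_mem_erase hb) (hl h).symm
      have := isCoprime_X_sub_C_of_isUnit_sub (R := F) (a := -l a) (b := -l b)
        (by
          rw [isUnit_iff_ne_zero]
          intro h
          apply hne
          linear_combination -h)
      simpa [sub_neg_eq_add] using this
    obtain ⟨u, w, huw⟩ := hcop
    have hmon : ((X + C (l a)) ^ k a).Monic := (monic_X_add_C _).pow _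
    set R : F[X] := (P * w) %ₘ (X + C (l a)) ^ k a with hR
    set Q : F[X] := P * u + G * ((P * w) /ₘ (X + C (l a)) ^ k a) with hQ
    have hPe : P = Q * (X + C (l a)) ^ k a + G * R := by
      have hd := modByMonic_add_div (P * w) ((X + C (l a)) ^ k a)
      calc P = P * (u * (X + C (l a)) ^ k a + w * G) := by rw [huw, mul_one]
        _ = P * u * (X + C (l a)) ^ k a + G * (P * w) := by ring
        _ = P * u * (X + C (l a)) ^ k a + G * ((P * w) %ₘ (X + C (l a)) ^ k a +
              (X + C (l a)) ^ k a * ((P * w) /ₘ (X + C (l a)) ^ k a)) := by rw [hd]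
        _ = _ := by rw [hQ, hR]; ring
    have hGdeg : G.natDegree = ∑ b ∈ univ.erase a, k b := by
      rw [hG, natDegree_prod_of_monic _ _ (fun b _ => (monic_X_add_C _).pow _)]
      apply sum_congr rfl
      intro b _
      simp [natDegree_pow]
    have hsum : ∑ b ∈ univ.erase a, k b + k a = ∑ b, k b :=
      sum_erase_add _ _ (mem_univ a)
    have hGR : (G * R).natDegree ≤ M := by
      rcases Nat.eq_zero_or_pos (k a) with h0 | h0
      · have : R = 0 := by rw [hR, h0, pow_zero, modByMonic_one]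
        simp [this]
      · have hRd : R.natDegree < k a := by
          have := natDegree_modByMonic_lt (P * w) hmon (by
            intro h
            have h' := congrArg natDegree h
            rw [natDegree_pow, natDegree_X_add_C, natDegree_one] at h'
            omega)
          rwa [natDegree_pow, natDegree_X_add_C, mul_one] at this
        refine (natDegree_mul_le).trans ?_
        rw [hGdeg]
        omega
    have hQd : (Q * (X + C (l a)) ^ k a).natDegree ≤ M := by
      have : Q * (X + C (l a)) ^ k a = P - G * R := by rw [hPe]; ring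
      rw [this]
      exact (natDegree_sub_le _ _).trans (max_le hP hGR)
    rw [hPe, symb_add]
    refine Submodule.add_mem _ (hdvd a Q hQd) ?_
    have hz : c.symb M (G * R) (∑ b, η b) = 0 := c.symb_horiz (by omega) _ h1 h2
    rw [symb_sum_right, ← sum_erase_add _ _ (mem_univ a)] at hz
    have hz' : c.symb M (G * R) (η a) = - ∑ b ∈ univ.erase a, c.symb M (G * R) (η b) := by
      rw [eq_neg_iff_add_eq_zero, add_comm]
      exact hz
    rw [hz']
    apply Submodule.neg_mem
    apply Submodule.sum_mem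
    intro b hb
    obtain ⟨G', hG'⟩ : (X + C (l b)) ^ k b ∣ G * R :=
      (dvd_prod_of_mem (fun b => (X + C (l b)) ^ k b) hb).mul_right R
    rw [mul_comm ((X + C (l b)) ^ k b) G'] at hG'
    rw [hG'] at hGR ⊢
    exact hdvd b G' hGR
  apply Submodule.span_le.2
  rintro x ⟨v, ⟨a, rfl⟩, i, j, hij, rfl⟩
  by_cases h : i + j < M
  · exact c.mem_L (Set.mem_range_self a) h
  · have hj : j = M - i := by omega
    have := key a (X ^ i) (by rw [natDegree_X_pow]; omega)
    rw [c.symb_X_pow M i (by omega), ← hj] at this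
    exact this

/-- **Web lemma**, finite dimensional form. -/
theorem web_finite {ι : Type*} [Fintype ι] [DecidableEq ι] (l : ι → F)
    (hl : Function.Injective l) (k : ι → ℕ) (η : ι → Ω)
    (hη : ∀ a, (c.V (l a))^[k a] (η a) ∈ c.L (k a) (Set.range η))
    (h1 : c.D1 (∑ a, η a) = 0) (h2 : c.D2 (∑ a, η a) = 0) :
    ∃ W : Submodule F Ω, FiniteDimensional F W ∧ (∀ a, η a ∈ W) ∧
      (∀ x ∈ W, c.D1 x ∈ W) ∧ ∀ x ∈ W, c.D2 x ∈ W := by
  have h := c.web l hl k η hη h1 h2
  refine ⟨c.L (∑ a, k a + 1) (Set.range η), ?_, fun a => ?_, fun x hx => h (c.D1_L hx),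
    fun x hx => h (c.D2_L hx)⟩
  · rw [FiniteDimensional, L]
    apply Module.Finite.span_of_finite
    set M : ℕ := ∑ a, k a + 1
    have : {x | ∃ v ∈ Set.range η, ∃ i j, i + j < M ∧ x = c.D1^[i] (c.D2^[j] v)} ⊆
        Set.range (fun p : ι × Fin M × Fin M => c.D1^[(p.2.1 : ℕ)] (c.D2^[(p.2.2 : ℕ)] (η p.1))) := by
      rintro x ⟨v, ⟨a, rfl⟩, i, j, hij, rfl⟩
      exact ⟨(a, ⟨i, by omega⟩, ⟨j, by omega⟩), rfl⟩
    exact (Set.finite_range _).subset this
  · exact c.L_mono (by omega) subset_rfl (c.self_mem (Set.mem_range_self a))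

end Conn

end Vale.Agent.P097.H367.FR
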