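import Mathlib
import Vale.Agent.P097.H367.FR.Web

/-!
# Differentials as functions on derivations

`K ⊂ M` fields of characteristic zero.  `Om K M` = `M`-linear forms on `Der_K(M, M)`, `dif x` = the
differential of `x`.  Algebraically independent elements have independent differentials; two
commuting derivations of `M` preserving `K` give a flat connection on `Om K M`.
-/

namespace Vale.Agent.P097.H367.FR

open Algebra

section ext

open scoped IntermediateField.algebraAdjoinAdjoin TensorProduct

variable {K M ι : Type*} [Field K] [Field M] [CharZero K] [Algebra K M]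

theorem formallyEtale_adjoin {b : ι → M} (hb : IsTranscendenceBasis K b) :
    Algebra.FormallyEtale (Algebra.adjoin K (Set.range b)) M := by
  have h1 : Algebra.IsAlgebraic (IntermediateField.adjoin K (Set.range b)) M :=
    hb.isAlgebraic_field
  have h2 : Algebra.FormallyEtale (IntermediateField.adjoin K (Set.range b)) M :=
    Algebra.FormallyEtale.of_isSeparable _ M
  have h3 : Algebra.FormallyEtale (Algebra.adjoin K (Set.range b))
      (IntermediateField.adjoin K (Set.range b)) :=
    Algebra.FormallyEtale.of_isLocalization (nonZeroDivisors _)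
  exact Algebra.FormallyEtale.comp _ (IntermediateField.adjoin K (Set.range b)) _

/-- Derivations exist with prescribed values on a transcendence basis. -/
theorem exists_der_basis {b : ι → M} (hb : IsTranscendenceBasis K b) (c : ι → M) :
    ∃ δ : Derivation K M M, ∀ i, δ (b i) = c i := by
  classical
  have h0 := formallyEtale_adjoin hb
  -- the derivation on polynomials
  let inst : Module (MvPolynomial ι K) M :=
    Module.compHom M (MvPolynomial.aeval (R := K) b).toRingHom
  have hsm : ∀ (p : MvPolynomial ι K) (m : M), p • m = MvPolynomial.aeval b p * m :=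
    fun p m => rfl
  have ist : IsScalarTower K (MvPolynomial ι K) M := by
    constructor
    intro a p m
    rw [hsm, hsm, map_smul, smul_mul_assoc]
  let d0 : Derivation K (MvPolynomial ι K) M := MvPolynomial.mkDerivation K c
  let σ : Algebra.adjoin K (Set.range b) ≃ₐ[K] MvPolynomial ι K := hb.1.aevalEquiv.symm
  have hσ : ∀ x, MvPolynomial.aeval b (σ x) = (x : M) := by
    intro x
    have := hb.1.algebraMap_aevalEquiv (σ x)
    rw [← this, AlgEquiv.apply_symm_apply]
    rfl
  have e2 : ∀ i, σ ⟨b i, Algebra.subset_adjoin ⟨i, rfl⟩⟩ = MvPolynomial.X i := by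
    intro i
    rw [AlgEquiv.symm_apply_eq]
    apply Subtype.ext
    have := hb.1.algebraMap_aevalEquiv (MvPolynomial.X i)
    rw [MvPolynomial.aeval_X] at this
    exact this.symm
  let d1 : Derivation K (Algebra.adjoin K (Set.range b)) M :=
    Derivation.mk' (d0.toLinearMap ∘ₗ σ.toLinearMap) (by
      intro x y
      have e1 : (d0.toLinearMap ∘ₗ σ.toLinearMap) (x * y) = d0 (σ x * σ y) := by
        simp
      rw [e1, d0.leibniz, hsm, hsm, hσ, hσ]
      rfl)
  have hd1 : ∀ i, d1 ⟨b i, Algebra.subset_adjoin ⟨i, rfl⟩⟩ = c i := by
    intro i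
    have : d1 ⟨b i, Algebra.subset_adjoin ⟨i, rfl⟩⟩ =
        d0 (σ ⟨b i, Algebra.subset_adjoin ⟨i, rfl⟩⟩) := rfl
    rw [this, e2]
    exact MvPolynomial.mkDerivation_X _ _ _
  let A := Algebra.adjoin K (Set.range b)
  let L1 : Ω[A⁄K] →ₗ[A] M := d1.liftKaehlerDifferential
  let L2 : M ⊗[A] Ω[A⁄K] →ₗ[M] M := LinearMap.liftBaseChange M L1
  let L3 : Ω[M⁄K] →ₗ[M] M :=
    L2 ∘ₗ (KaehlerDifferential.tensorKaehlerEquivOfFormallyEtale K A M).symm.toLinearMap
  refine ⟨L3.compDer (KaehlerDifferential.D K M), fun i => ?_⟩
  have h := KaehlerDifferential.tensorKaehlerEquivOfFormallyEtale_symm_D_algebraMap K A M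
    ⟨b i, Algebra.subset_adjoin ⟨i, rfl⟩⟩
  have h' : (L3.compDer (KaehlerDifferential.D K M)) (b i) =
      L2 ((KaehlerDifferential.tensorKaehlerEquivOfFormallyEtale K A M).symm
        (KaehlerDifferential.D K M (algebraMap A M ⟨b i, Algebra.subset_adjoin ⟨i, rfl⟩⟩))) := rfl
  rw [h', h, ← hd1 i]
  change LinearMap.liftBaseChange M L1 _ = _
  rw [LinearMap.liftBaseChange_tmul, one_smul]
  exact d1.liftKaehlerDifferential_comp_D _

end ext

section indep

variable {K M ι : Type*} [Field K] [Field M] [CharZero K] [Algebra K M]

/-- Derivations exist with prescribed values on an algebraically independent family. -/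
theorem exists_der {f : ι → M} (hf : AlgebraicIndependent K f) (c : ι → M) :
    ∃ δ : Derivation K M M, ∀ i, δ (f i) = c i := by
  classical
  have hinj : Function.Injective f := hf.injective
  obtain ⟨t, hst, ht⟩ := exists_isTranscendenceBasis_superset (R := K) (s := Set.range f)
    (A := M) (AlgebraicIndependent.to_subtype_range hf)
  let c' : t → M := fun x => if h : ∃ i, f i = x then c h.choose else 0
  obtain ⟨δ, hδ⟩ := exists_der_basis ht c'
  refine ⟨δ, fun i => ?_⟩
  have := hδ ⟨f i, hst ⟨i, rfl⟩⟩
  rw [this]
  have hex : ∃ j, f j = ((⟨f i, hst ⟨i, rfl⟩⟩ : t) : M) := ⟨i, rfl⟩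
  simp only [c']
  rw [dif_pos hex]
  congr 1
  exact hinj hex.choose_spec

end indep

/-! ### The space of differentials -/

variable (K M : Type*) [Field K] [Field M] [Algebra K M]

/-- Differentials: linear forms on the derivations. -/
abbrev Om : Type _ := Derivation K M M →ₗ[M] M

variable {K M}

/-- The differential of `x`. -/
def dif : Derivation K M (Om K M) where
  toFun x := { toFun := fun δ => δ x, map_add' := fun _ _ => rfl, map_smul' := fun _ _ => rfl }
  map_add' x y := by ext δ; simp
  map_smul' a x := by ext δ; simp
  map_one_eq_zero' := by ext δ; simp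
  leibniz' x y := by ext δ; simp

@[simp] lemma dif_apply (x : M) (δ : Derivation K M M) : (dif x : Om K M) δ = δ x := rfl

lemma linearIndependent_dif [CharZero K] {ι : Type*} {f : ι → M} (hf : AlgebraicIndependent K f) :
    LinearIndependent M (fun i => (dif (f i) : Om K M)) := by
  classical
  rw [linearIndependent_iff']
  intro s g hg i hi
  obtain ⟨δ, hδ⟩ := exists_der hf (fun j => if j = i then (1 : M) else 0)
  have := congrArg (fun ω : Om K M => ω δ) hg
  simp only [LinearMap.sum_apply, LinearMap.smul_apply, dif_apply, hδ, smul_eq_mul, mul_ite,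
    mul_one, mul_zero, LinearMap.zero_apply] at this
  rw [Finset.sum_ite_eq' s i g, if_pos hi] at this
  exact this

/-- Elements whose differential lies in `W` form a field. -/
def difField (W : Submodule M (Om K M)) : IntermediateField K M where
  carrier := {x | dif x ∈ W}
  mul_mem' {x y} hx hy := by
    simp only [Set.mem_ofPred_eq] at hx hy ⊢
    rw [Derivation.leibniz]
    exact W.add_mem (W.smul_mem _ hy) (W.smul_mem _ hx)
  add_mem' {x y} hx hy := by
    simp only [Set.mem_ofPred_eq] at hx hy ⊢
    rw [map_add]
    exact W.add_mem hx hy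
  algebraMap_mem' a := by
    simp only [Set.mem_ofPred_eq]
    rw [Derivation.map_algebraMap]
    exact W.zero_mem
  inv_mem' x hx := by
    simp only [Set.mem_ofPred_eq] at hx ⊢
    rw [Derivation.leibniz_inv]
    exact W.smul_mem _ hx

lemma mem_difField {W : Submodule M (Om K M)} {x : M} : x ∈ difField W ↔ dif x ∈ W := Iff.rfl

/-- The transcendence degree of `difField W` is at most `dim W`. -/
theorem card_le_of_mem [CharZero K] {W : Submodule M (Om K M)} [FiniteDimensional M W] {m : ℕ}
    {f : Fin m → M} (hf : AlgebraicIndependent K f) (hW : ∀ i, f i ∈ difField W) :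
    m ≤ Module.finrank M W := by
  have h := linearIndependent_dif hf
  have h' : LinearIndependent M (fun i => (⟨dif (f i), mem_difField.1 (hW i)⟩ : W)) :=
    LinearIndependent.of_comp W.subtype h
  simpa using h'.fintype_card_le_finrank

/-! ### The connection -/

section conn

variable (d : Derivation ℤ M M) (hd : ∀ k : K, ∃ k' : K, d (algebraMap K M k) = algebraMap K M k')

/-- The bracket `[d, δ]` of a derivation preserving `K` and a `K`-derivation. -/
def brk (δ : Derivation K M M) : Derivation K M M :=
  Derivation.mk'
    { toFun := fun x => d (δ x) - δ (d x)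
      map_add' := fun x y => by simp only [map_add]; ring
      map_smul' := fun k x => by
        obtain ⟨k', hk'⟩ := hd k
        have h1 : d (k • δ x) = algebraMap K M k' * δ x + algebraMap K M k * d (δ x) := by
          rw [Algebra.smul_def, Derivation.leibniz, hk', smul_eq_mul, smul_eq_mul]
          ring
        have h2 : d (k • x) = algebraMap K M k' * x + algebraMap K M k * d x := by
          rw [Algebra.smul_def, Derivation.leibniz, hk', smul_eq_mul, smul_eq_mul]
          ring
        simp only [RingHom.id_apply]
        rw [δ.map_smul, h1, h2, map_add, Derivation.leibniz, Derivation.leibniz,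
          Derivation.map_algebraMap, Derivation.map_algebraMap, smul_zero, smul_zero, add_zero,
          add_zero, Algebra.smul_def k (d (δ x) - δ (d x))]
        simp only [smul_eq_mul]
        ring }
    (fun x y => by
      simp only [LinearMap.coe_mk, AddHom.coe_mk, Derivation.leibniz, map_add, smul_eq_mul]
      ring)

lemma brk_apply (δ : Derivation K M M) (x : M) : brk d hd δ x = d (δ x) - δ (d x) := rfl

/-- The Lie derivative of differentials. -/
def lie : Om K M →+ Om K M where
  toFun ω :=
    { toFun := fun δ => d (ω δ) - ω (brk d hd δ)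
      map_add' := fun δ δ' => by
        have : brk d hd (δ + δ') = brk d hd δ + brk d hd δ' := by
          ext x
          simp only [brk_apply, Derivation.add_apply, map_add]
          ring
        simp only [this, map_add]
        ring
      map_smul' := fun a δ => by
        have : brk d hd (a • δ) = d a • δ + a • brk d hd δ := by
          ext x
          simp only [brk_apply, Derivation.add_apply, Derivation.smul_apply, smul_eq_mul,
            Derivation.leibniz]
          ring
        simp only [this, map_add, map_smul, smul_eq_mul, Derivation.leibniz, RingHom.id_apply]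
        ring }
  map_zero' := by ext δ; simp
  map_add' ω ω' := by
    ext δ
    simp only [LinearMap.add_apply, LinearMap.coe_mk, AddHom.coe_mk, map_add]
    ring

lemma lie_apply (ω : Om K M) (δ : Derivation K M M) :
    lie d hd ω δ = d (ω δ) - ω (brk d hd δ) := rfl

lemma lie_smul (a : M) (ω : Om K M) : lie d hd (a • ω) = d a • ω + a • lie d hd ω := by
  ext δ
  simp only [lie_apply, LinearMap.smul_apply, LinearMap.add_apply, smul_eq_mul,
    Derivation.leibniz]
  ring

lemma lie_dif (x : M) : lie d hd (dif x : Om K M) = dif (d x) := by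
  ext δ
  simp [lie_apply, brk_apply]

end conn

/-- The flat connection on differentials given by two commuting derivations. -/
def conn (d1 d2 : Derivation ℤ M M)
    (h1 : ∀ k : K, ∃ k' : K, d1 (algebraMap K M k) = algebraMap K M k')
    (h2 : ∀ k : K, ∃ k' : K, d2 (algebraMap K M k) = algebraMap K M k')
    (hc : ∀ x, d1 (d2 x) = d2 (d1 x)) : Conn M (Om K M) where
  d1 := d1
  d2 := d2
  D1 := lie d1 h1
  D2 := lie d2 h2
  leib1 := lie_smul d1 h1
  leib2 := lie_smul d2 h2
  comm ω := by
    ext δ
    have e : brk d1 h1 (brk d2 h2 δ) = brk d2 h2 (brk d1 h1 δ) := by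
      ext x
      simp only [brk_apply, map_sub, hc]
      ring
    simp only [lie_apply, map_sub, hc, e]
    ring

end Vale.Agent.P097.H367.FR
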