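import Mathlib
import Vale.Agent.P097.H367.FR.Der

/-!
# A reflection chain with given outer lines has finite transcendence degree

Isotropic coordinates `p = x + iy`, `q = x - iy`; direction `(e, e⁻¹)`; the line through `(p, q)`
with direction `e` has `m = p - e² q`; reflection law `dp = e e' dq`.
-/

namespace Vale.Agent.P097.H367.FR

variable {K M : Type*} [Field K] [Field M] [Algebra K M]

/-- A reflection chain with `n` vertices `(p j, q j)`, `j < n`, and directions `e j`, `j ≤ n`. -/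
structure IsChain (d1 d2 : Derivation ℤ M M) (n : ℕ) (p q e : ℕ → M) : Prop where
  e_ne : ∀ j ≤ n, e j ≠ 0
  ne : ∀ j < n, e j ≠ e (j + 1)
  inc : ∀ j, j + 1 < n → p (j + 1) - e (j + 1) ^ 2 * q (j + 1) = p j - e (j + 1) ^ 2 * q j
  r1 : ∀ j < n, d1 (p j) = e j * e (j + 1) * d1 (q j)
  r2 : ∀ j < n, d2 (p j) = e j * e (j + 1) * d2 (q j)

namespace IsChain

variable {d1 d2 : Derivation ℤ M M} {n : ℕ} {p q e : ℕ → M}

/-- The length functional. -/
def len (n : ℕ) (p q e : ℕ → M) : M :=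
  ∑ j ∈ Finset.range n, (p j / e j + q j * e j - p j / e (j + 1) - q j * e (j + 1))

/-- First variation of the length. -/
lemma var {X : Type*} [AddCommGroup X] [Module M X] (δ : Derivation ℤ M X)
    (he : ∀ j ≤ n, e j ≠ 0)
    (inc : ∀ j, j + 1 < n → p (j + 1) - e (j + 1) ^ 2 * q (j + 1) = p j - e (j + 1) ^ 2 * q j)
    (hn : 0 < n) :
    δ (len n p q e) =
      ∑ j ∈ Finset.range n, ((e j)⁻¹ - (e (j + 1))⁻¹) •
        (δ (p j) - (e j * e (j + 1)) • δ (q j)) -
      ((p 0 - e 0 ^ 2 * q 0) / e 0 ^ 2) • δ (e 0) +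
      ((p (n - 1) - e n ^ 2 * q (n - 1)) / e n ^ 2) • δ (e n) := by
  -- the variation of one term
  have h1 : ∀ j, j < n → δ (p j / e j + q j * e j - p j / e (j + 1) - q j * e (j + 1)) =
      ((e j)⁻¹ - (e (j + 1))⁻¹) • (δ (p j) - (e j * e (j + 1)) • δ (q j)) +
      (((p j - e (j + 1) ^ 2 * q j) / e (j + 1) ^ 2) • δ (e (j + 1)) -
        ((p j - e j ^ 2 * q j) / e j ^ 2) • δ (e j)) := by
    intro j hj
    have a1 := he j hj.le
    have a2 := he (j + 1) hj
    simp only [map_sub, map_add, div_eq_mul_inv, Derivation.leibniz, Derivation.leibniz_inv]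
    have b1 : (e j)⁻¹ ^ 2 * e j ^ 2 = 1 := by
      field_simp
    match_scalars <;> field_simp <;> ring
  rw [len, map_sum, Finset.sum_congr rfl (fun j hj => h1 j (Finset.mem_range.1 hj)),
    Finset.sum_add_distrib, sub_add_eq_add_sub, add_sub_assoc]
  congr 1
  -- telescoping
  have key : ∀ m, m < n → ∑ j ∈ Finset.range (m + 1),
      (((p j - e (j + 1) ^ 2 * q j) / e (j + 1) ^ 2) • δ (e (j + 1)) -
        ((p j - e j ^ 2 * q j) / e j ^ 2) • δ (e j)) =
      ((p m - e (m + 1) ^ 2 * q m) / e (m + 1) ^ 2) • δ (e (m + 1)) -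
        ((p 0 - e 0 ^ 2 * q 0) / e 0 ^ 2) • δ (e 0) := by
    intro m
    induction m with
    | zero => intro _; simp
    | succ k ih =>
      intro hk
      rw [Finset.sum_range_succ, ih (by omega), ← inc k hk]
      abel
  have := key (n - 1) (by omega)
  rwa [Nat.sub_add_cancel hn] at this

end IsChain

/-- **Finite rank theorem for reflection chains**. -/
theorem IsChain.finite [CharZero K] {d1 d2 : Derivation ℤ M M} {n : ℕ} {p q e : ℕ → M}
    (h : IsChain d1 d2 n p q e) (hn : 0 < n)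
    (h1 : ∀ k : K, ∃ k' : K, d1 (algebraMap K M k) = algebraMap K M k')
    (h2 : ∀ k : K, ∃ k' : K, d2 (algebraMap K M k) = algebraMap K M k')
    (hc : ∀ x, d1 (d2 x) = d2 (d1 x))
    (o1 : ∃ k : K, algebraMap K M k = e 0)
    (o2 : ∃ k : K, algebraMap K M k = p 0 - e 0 ^ 2 * q 0)
    (o3 : ∃ k : K, algebraMap K M k = e n)
    (o4 : ∃ k : K, algebraMap K M k = p (n - 1) - e n ^ 2 * q (n - 1))
    (hq : ∀ j < n, d2 (q j) ≠ 0)
    (hs : ∀ i < n, ∀ j < n, i ≠ j → d1 (q i) / d2 (q i) ≠ d1 (q j) / d2 (q j)) :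
    ∃ L : IntermediateField K M,
      (∀ j < n, p j ∈ L ∧ q j ∈ L ∧ e j ∈ L ∧ e (j + 1) ∈ L) ∧
      (∀ x ∈ L, d1 x ∈ L ∧ d2 x ∈ L) ∧
      ∃ N : ℕ, ∀ (m : ℕ) (f : Fin m → M), (∀ i, f i ∈ L) → AlgebraicIndependent K f → m ≤ N := by
  classical
  set c : Conn M (Om K M) := conn d1 d2 h1 h2 hc with hcdef
  let ζ : ℕ → Om K M := fun j => dif (p j) - (e j * e (j + 1)) • dif (q j)
  let κ : ℕ → M := fun j => (e j)⁻¹ - (e (j + 1))⁻¹
  have hκ : ∀ j < n, κ j ≠ 0 := by
    intro j hj h0
    exact h.ne j hj (inv_injective (sub_eq_zero.1 h0))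
  let l : Fin n → M := fun j => -(d1 (q j) / d2 (q j))
  have hl : Function.Injective l := by
    intro i j hij
    by_contra hne
    exact hs i i.2 j j.2 (fun h => hne (Fin.ext h)) (neg_injective hij)
  let η : Fin n → Om K M := fun j => κ j • ζ j
  have D1d : ∀ x : M, c.D1 (dif x) = dif (d1 x) := fun x => lie_dif d1 h1 x
  have D2d : ∀ x : M, c.D2 (dif x) = dif (d2 x) := fun x => lie_dif d2 h2 x
  have hd1 : c.d1 = d1 := rfl
  have hd2 : c.d2 = d2 := rfl
  -- `V ζ = 0`
  have hVζ : ∀ j : Fin n, c.D1 (ζ j) + l j • c.D2 (ζ j) = 0 := by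
    intro j
    have hqj := hq j j.2
    have e1 : c.D1 (ζ j) = d1 (q j) • dif (e j * e (j + 1)) -
        d1 (e j * e (j + 1)) • dif (q j) := by
      simp only [ζ]
      rw [map_sub, c.leib1, D1d, D1d, hd1, h.r1 j j.2, Derivation.leibniz]
      abel
    have e2 : c.D2 (ζ j) = d2 (q j) • dif (e j * e (j + 1)) -
        d2 (e j * e (j + 1)) • dif (q j) := by
      simp only [ζ]
      rw [map_sub, c.leib2, D2d, D2d, hd2, h.r2 j j.2, Derivation.leibniz]
      abel
    have e3 : d1 (e j * e (j + 1)) * d2 (q j) = d2 (e j * e (j + 1)) * d1 (q j) := by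
      have a := hc (p j)
      have a1 := d1.leibniz (e j * e (j + 1)) (d2 (q j))
      have a2 := d2.leibniz (e j * e (j + 1)) (d1 (q j))
      rw [h.r2 j j.2, h.r1 j j.2, a1, a2, hc (q j)] at a
      simp only [smul_eq_mul] at a
      linear_combination a
    rw [e1, e2]
    simp only [l]
    have e4 : d1 (e j * e (j + 1)) = d1 (q j) / d2 (q j) * d2 (e j * e (j + 1)) := by
      field_simp
      linear_combination e3
    rw [e4]
    match_scalars
    · field_simp
      ring
    · ring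
  have hVη : ∀ j, (c.V (l j))^[1] (η j) ∈ c.L 1 (Set.range η) := by
    intro j
    have : (c.V (l j))^[1] (η j) = ((d1 (κ j) + l j * d2 (κ j)) / κ j) • η j := by
      have hk := hκ j j.2
      simp only [Function.iterate_one, Conn.V, η]
      rw [c.leib1, c.leib2, hd1, hd2, smul_smul, div_mul_cancel₀ _ hk, smul_add]
      have hz := hVζ j
      have : κ j • c.D1 (ζ j) + l j • κ j • c.D2 (ζ j) = κ j • (c.D1 (ζ j) + l j • c.D2 (ζ j)) := by
        rw [smul_add, smul_comm (l j) (κ j)]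
      calc d1 (κ j) • ζ j + κ j • c.D1 (ζ j) + (l j • d2 (κ j) • ζ j + l j • κ j • c.D2 (ζ j))
          = (d1 (κ j) • ζ j + l j • d2 (κ j) • ζ j) +
            (κ j • c.D1 (ζ j) + l j • κ j • c.D2 (ζ j)) := by abel
        _ = (d1 (κ j) + l j * d2 (κ j)) • ζ j := by
            rw [this, hz, smul_zero, add_zero, add_smul, mul_smul]
    rw [this]
    exact Submodule.smul_mem _ _ (c.self_mem (Set.mem_range_self j))
  -- outer data
  obtain ⟨k1, hk1⟩ := o1
  obtain ⟨k2, hk2⟩ := o2
  obtain ⟨k3, hk3⟩ := o3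
  obtain ⟨k4, hk4⟩ := o4
  have sumη : ∑ j, η j = ∑ j ∈ Finset.range n, κ j • ζ j :=
    Fin.sum_univ_eq_sum_range (fun j => κ j • ζ j) n
  have hlen : dif (IsChain.len n p q e) = ∑ j, η j := by
    have := IsChain.var (n := n) (p := p) (q := q) (e := e)
      ((dif : Derivation K M (Om K M)).restrictScalars ℤ) h.e_ne h.inc hn
    simp only [Derivation.restrictScalars_apply] at this
    rw [this, sumη, ← hk1, ← hk3, Derivation.map_algebraMap, Derivation.map_algebraMap]
    simp [ζ, κ]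
  have hlen1 : ∃ k : K, d1 (IsChain.len n p q e) = algebraMap K M k := by
    have := IsChain.var (n := n) (p := p) (q := q) (e := e) d1 h.e_ne h.inc hn
    obtain ⟨k1', hk1'⟩ := h1 k1
    obtain ⟨k3', hk3'⟩ := h1 k3
    refine ⟨-(k2 / k1 ^ 2 * k1') + k4 / k3 ^ 2 * k3', ?_⟩
    rw [this, Finset.sum_eq_zero, ← hk2, ← hk4, ← hk1, ← hk3, hk1', hk3']
    · simp
    · intro j hj
      rw [h.r1 j (Finset.mem_range.1 hj)]
      simp
  have hlen2 : ∃ k : K, d2 (IsChain.len n p q e) = algebraMap K M k := by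
    have := IsChain.var (n := n) (p := p) (q := q) (e := e) d2 h.e_ne h.inc hn
    obtain ⟨k1', hk1'⟩ := h2 k1
    obtain ⟨k3', hk3'⟩ := h2 k3
    refine ⟨-(k2 / k1 ^ 2 * k1') + k4 / k3 ^ 2 * k3', ?_⟩
    rw [this, Finset.sum_eq_zero, ← hk2, ← hk4, ← hk1, ← hk3, hk1', hk3']
    · simp
    · intro j hj
      rw [h.r2 j (Finset.mem_range.1 hj)]
      simp
  have hz1 : c.D1 (∑ j, η j) = 0 := by
    obtain ⟨k, hk⟩ := hlen1
    rw [← hlen, D1d, hk, Derivation.map_algebraMap]
  have hz2 : c.D2 (∑ j, η j) = 0 := by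
    obtain ⟨k, hk⟩ := hlen2
    rw [← hlen, D2d, hk, Derivation.map_algebraMap]
  obtain ⟨W, hWf, hWη, hW1, hW2⟩ := c.web_finite l hl (fun _ => 1) η hVη hz1 hz2
  have st1 : ∀ x ∈ difField W, d1 x ∈ difField W := by
    intro x hx
    rw [mem_difField] at hx ⊢
    rw [← D1d]
    exact hW1 _ hx
  have st2 : ∀ x ∈ difField W, d2 x ∈ difField W := by
    intro x hx
    rw [mem_difField] at hx ⊢
    rw [← D2d]
    exact hW2 _ hx
  -- induction along the chain
  have step : ∀ j < n, e j ∈ difField W → p j - e j ^ 2 * q j ∈ difField W →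
      p j ∈ difField W ∧ q j ∈ difField W ∧ e (j + 1) ∈ difField W := by
    intro j hj he hm
    have hne := h.ne j hj
    have he0 := h.e_ne j hj.le
    have hζ : ζ j ∈ W := by
      have := W.smul_mem (κ j)⁻¹ (hWη ⟨j, hj⟩)
      simp only [η] at this
      rwa [smul_smul, inv_mul_cancel₀ (hκ j hj), one_smul] at this
    have hqd : q j ∈ difField W := by
      rw [mem_difField] at he hm ⊢
      rw [map_sub, Derivation.leibniz, Derivation.leibniz_pow] at hm
      have h3 : (e j * (e (j + 1) - e j)) • dif (q j) ∈ W := by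
        have := W.add_mem (W.sub_mem hm hζ) (W.smul_mem (q j * (2 * e j)) he)
        have e1 : (e j * (e (j + 1) - e j)) • dif (q j) =
            dif (p j) - (e j ^ 2 • dif (q j) + q j • 2 • e j ^ (2 - 1) • dif (e j)) - ζ j +
              (q j * (2 * e j)) • dif (e j) := by
          simp only [ζ]
          match_scalars <;> ring
        rw [e1]
        exact this
      have := W.smul_mem (e j * (e (j + 1) - e j))⁻¹ h3
      rwa [smul_smul, inv_mul_cancel₀ (mul_ne_zero he0 (sub_ne_zero.2 hne.symm)), one_smul] at this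
    have hpd : p j ∈ difField W := by
      have := (difField W).add_mem hm ((difField W).mul_mem (pow_mem he 2) hqd)
      rwa [sub_add_cancel] at this
    refine ⟨hpd, hqd, ?_⟩
    have h5 : e (j + 1) = d2 (p j) / (d2 (q j) * e j) := by
      rw [h.r2 j hj]
      have := hq j hj
      field_simp
    rw [h5]
    exact (difField W).div_mem (st2 _ hpd) ((difField W).mul_mem (st2 _ hqd) he)
  have all : ∀ j, j < n → e j ∈ difField W ∧ p j - e j ^ 2 * q j ∈ difField W := by
    intro j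
    induction j with
    | zero =>
      intro _
      rw [← hk2, ← hk1]
      exact ⟨(difField W).algebraMap_mem _, (difField W).algebraMap_mem _⟩
    | succ i ih =>
      intro hi
      obtain ⟨a1, a2⟩ := ih (by omega)
      obtain ⟨b1, b2, b3⟩ := step i (by omega) a1 a2
      refine ⟨b3, ?_⟩
      rw [h.inc i hi]
      exact (difField W).sub_mem b1 ((difField W).mul_mem (pow_mem b3 2) b2)
  refine ⟨difField W, fun j hj => ?_, fun x hx => ⟨st1 x hx, st2 x hx⟩, Module.finrank M W,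
    fun m f hf hi => card_le_of_mem hi hf⟩
  obtain ⟨a1, a2⟩ := all j hj
  obtain ⟨b1, b2, b3⟩ := step j hj a1 a2
  exact ⟨b1, b2, a1, b3⟩

end Vale.Agent.P097.H367.FR
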