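import Mathlib
import Vale.Agent.P097.H367.FR.Web

/-!
# Web lemma with coinciding foliations
-/

namespace Vale.Agent.P097.H367.FR

open Finset

variable {F Ω : Type*} [Field F] [AddCommGroup Ω] [Module F Ω]

/-- A subspace of `F^ι` stable under the derivation `v` is everything, as soon as no nonzero
constant vector annihilates it. -/
theorem stable_top {ι : Type*} [Fintype ι] [DecidableEq ι] (v : Derivation ℤ F F)
    (R : Submodule F (ι → F)) (hR : ∀ r ∈ R, (fun a => v (r a)) ∈ R)
    (hc : ∀ c : ι → F, (∀ a, v (c a) = 0) → (∀ r ∈ R, ∑ a, c a * r a = 0) → c = 0) : R = ⊤ := by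
  classical
  by_contra hne
  obtain ⟨f, hf0, hf⟩ := Submodule.exists_le_ker_of_lt_top R (lt_top_iff_ne_top.2 hne)
  have hfr : ∀ r : ι → F, f r = ∑ a, f (Pi.single a 1) * r a := by
    intro r
    conv_lhs => rw [pi_eq_sum_univ' r]
    rw [map_sum]
    apply sum_congr rfl
    intro a _
    rw [map_smul, smul_eq_mul, mul_comm]
  let P : ℕ → Prop := fun n => ∃ c : ι → F, c ≠ 0 ∧ (∀ r ∈ R, ∑ a, c a * r a = 0) ∧
    #{a | c a ≠ 0} = n
  have hex : ∃ n, P n := by
    refine ⟨_, fun a => f (Pi.single a 1), ?_, ?_, rfl⟩
    · intro h0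
      apply hf0
      ext a
      simpa using congrFun h0 a
    · intro r hr
      rw [← hfr]
      exact hf hr
  obtain ⟨c, hc0, hcR, hcn⟩ := Nat.find_spec hex
  obtain ⟨a0, ha0⟩ : ∃ a0, c a0 ≠ 0 := by
    by_contra h
    push Not at h
    exact hc0 (funext h)
  -- normalise
  set g : ι → F := fun a => (c a0)⁻¹ * c a with hg
  have hg0 : g a0 = 1 := inv_mul_cancel₀ ha0
  have hgR : ∀ r ∈ R, ∑ a, g a * r a = 0 := by
    intro r hr
    have := hcR r hr
    simp only [hg, mul_assoc]
    rw [← mul_sum, this, mul_zero]
  have hgs : ∀ a, g a ≠ 0 ↔ c a ≠ 0 := by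
    intro a
    simp [hg, ha0]
  have hvR : ∀ r ∈ R, ∑ a, v (g a) * r a = 0 := by
    intro r hr
    have h1 := congrArg v (hgR r hr)
    have h2 := hgR _ (hR r hr)
    rw [map_sum, map_zero] at h1
    simp only [Derivation.leibniz, smul_eq_mul, sum_add_distrib] at h1
    rw [h2, zero_add] at h1
    rw [← h1]
    exact sum_congr rfl fun a _ => mul_comm _ _
  have hv0 : (fun a => v (g a)) = 0 := by
    by_contra hne0
    have hlt : #{a | v (g a) ≠ 0} < Nat.find hex := by
      rw [← hcn]
      apply card_lt_card
      rw [ssubset_iff_of_subset]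
      · refine ⟨a0, by simp [ha0], ?_⟩
        simp [hg0]
      · intro a ha
        rw [mem_filter] at ha ⊢
        refine ⟨mem_univ _, ?_⟩
        rw [← hgs]
        intro h0
        apply ha.2
        rw [h0, map_zero]
    exact Nat.find_min hex hlt ⟨_, hne0, hvR, rfl⟩
  have := hc g (fun a => congrFun hv0 a) hgR
  have h1 := congrFun this a0
  rw [hg0] at h1
  exact one_ne_zero h1

namespace Conn

variable (c : Conn F Ω)

lemma V_add (l : F) (x y : Ω) : c.V l (x + y) = c.V l x + c.V l y := by
  simp only [V, map_add, smul_add]; abel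

lemma V_zero (l : F) : c.V l 0 = 0 := by simp [V]

lemma V_sum (l : F) {ι : Type*} (s : Finset ι) (f : ι → Ω) :
    c.V l (∑ a ∈ s, f a) = ∑ a ∈ s, c.V l (f a) := by
  simp only [V, map_sum, smul_sum, sum_add_distrib]

lemma V_smul (l a : F) (x : Ω) : c.V l (a • x) = (c.d1 a + l * c.d2 a) • x + a • c.V l x := by
  simp only [V, c.leib1, c.leib2, smul_add, add_smul, mul_smul]
  rw [smul_comm l a]
  abel

/-- **Web lemma with coinciding foliations.** -/
theorem web_class {ι β : Type*} [Fintype ι] [DecidableEq ι] [Fintype β] [DecidableEq β]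
    (v1 v2 : Derivation ℤ F F) (e1 : ∀ a, c.d1 a = v1 a) (e2 : ∀ a, c.d2 a = v2 a)
    (l : β → F) (hl : Function.Injective l) (cls : ι → β) (z : ι → Ω) (s : ι → F)
    (hz : ∀ a, c.D1 (z a) + l (cls a) • c.D2 (z a) = 0)
    (hs : ∀ b, ∀ g : ι → F, (∀ a, v1 (g a) + l b * v2 (g a) = 0) →
      ∑ a with cls a = b, g a * s a = 0 → ∀ a, cls a = b → g a = 0)
    (h1 : c.D1 (∑ a, s a • z a) = 0) (h2 : c.D2 (∑ a, s a • z a) = 0) :
    ∃ W : Submodule F Ω, FiniteDimensional F W ∧ (∀ a, z a ∈ W) ∧
      (∀ x ∈ W, c.D1 x ∈ W) ∧ ∀ x ∈ W, c.D2 x ∈ W := by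
  classical
  let η : β → Ω := fun b => ∑ a with cls a = b, s a • z a
  let v : β → Derivation ℤ F F := fun b => v1 + l b • v2
  have hv : ∀ b a, v b a = v1 a + l b * v2 a := fun b a => rfl
  -- the cyclic submodule
  let S : β → Submodule F Ω := fun b => Submodule.span F (Set.range fun i : ℕ => (c.V (l b))^[i] (η b))
  have hSV : ∀ b, ∀ x ∈ S b, c.V (l b) x ∈ S b := by
    intro b x hx
    induction hx using Submodule.span_induction with
    | mem x hx =>
      obtain ⟨i, rfl⟩ := hx
      refine Submodule.subset_span ⟨i + 1, ?_⟩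
      exact Function.iterate_succ_apply' _ _ _
    | zero => rw [V_zero]; exact Submodule.zero_mem _
    | add x y _ _ hx hy => rw [V_add]; exact Submodule.add_mem _ hx hy
    | smul a x hx hx' =>
      rw [V_smul]
      exact Submodule.add_mem _ (Submodule.smul_mem _ _ hx) (Submodule.smul_mem _ _ hx')
  -- every `z a` lies in the cyclic submodule of its class
  have hzS : ∀ a, z a ∈ S (cls a) := by
    intro a
    set b := cls a with hb
    let T : Submodule F ({a // cls a = b} → F) :=
      (S b).comap (Fintype.linearCombination F (fun a : {a // cls a = b} => z a.1))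
    have hT : ∀ r, r ∈ T ↔ ∑ a : {a // cls a = b}, r a • z a.1 ∈ S b := by
      intro r
      rw [Submodule.mem_comap, Fintype.linearCombination_apply]
    have hTt : T = ⊤ := by
      apply stable_top (v b)
      · intro r hr
        rw [hT] at hr ⊢
        have := hSV b _ hr
        rw [V_sum] at this
        have e : ∑ a : {a // cls a = b}, v b (r a) • z a.1 =
            ∑ a : {a // cls a = b}, c.V (l b) (r a • z a.1) := by
          apply sum_congr rfl
          intro a _
          have hza := hz a.1
          rw [a.2] at hza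
          rw [V_smul, e1, e2, hv]
          have : c.V (l b) (z a.1) = 0 := hza
          rw [this, smul_zero, add_zero]
        rw [e]
        exact this
      · intro g hg hgR
        have hsT : (fun a : {a // cls a = b} => s a.1) ∈ T := by
          rw [hT]
          refine Submodule.subset_span ⟨0, ?_⟩
          simp only [Function.iterate_zero, id, η]
          rw [← sum_subtype_eq_sum_filter]
          simp only [subtype_univ]
        have h3 := hgR _ hsT
        let g' : ι → F := fun a => if h : cls a = b then g ⟨a, h⟩ else 0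
        have h4 : ∑ a with cls a = b, g' a * s a = 0 := by
          rw [← sum_subtype_eq_sum_filter, subtype_univ, ← h3]
          apply sum_congr rfl
          intro a _
          simp only [g', dif_pos a.2]
        have h5 := hs b g' (by
          intro a
          simp only [g']
          split_ifs with h
          · rw [← hv]; exact hg ⟨a, h⟩
          · rw [map_zero, map_zero, mul_zero, add_zero]) h4
        funext a
        have := h5 a.1 a.2
        simp only [g', dif_pos a.2] at this
        exact this
    have : (Pi.single (⟨a, rfl⟩ : {a' // cls a' = b}) (1 : F)) ∈ T := by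
      rw [hTt]; exact Submodule.mem_top
    rw [hT, sum_eq_single (⟨a, rfl⟩ : {a' // cls a' = b})] at this
    · simpa using this
    · intro a' _ hne
      rw [Pi.single_eq_of_ne hne, zero_smul]
    · intro h; exact absurd (mem_univ _) h
  -- the order
  have hk : ∀ b, ∃ k, (c.V (l b))^[k] (η b) ∈
      Submodule.span F {x | ∃ i < k, x = (c.V (l b))^[i] (η b)} := by
    intro b
    -- everything lives in the finite dimensional span of the `z`
    let Z : Submodule F Ω := Submodule.span F (Set.range z)
    have hZf : FiniteDimensional F Z := FiniteDimensional.span_of_finite F (Set.finite_range z)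
    have hZi : ∀ i, ∃ r : ι → F, (c.V (l b))^[i] (η b) = ∑ a with cls a = b, r a • z a := by
      intro i
      induction i with
      | zero => exact ⟨s, rfl⟩
      | succ n ih =>
        obtain ⟨r, hr⟩ := ih
        refine ⟨fun a => v b (r a), ?_⟩
        rw [Function.iterate_succ_apply', hr, V_sum]
        apply sum_congr rfl
        intro a ha
        have hab := (mem_filter.1 ha).2
        have hza := hz a
        rw [hab] at hza
        show c.V (l b) (r a • z a) = v b (r a) • z a
        rw [V_smul, e1, e2, hv]
        have : c.V (l b) (z a) = 0 := hza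
        rw [this, smul_zero, add_zero]
    have hZm : ∀ i, (c.V (l b))^[i] (η b) ∈ Z := by
      intro i
      obtain ⟨r, hr⟩ := hZi i
      rw [hr]
      exact Submodule.sum_mem _ fun a _ => Submodule.smul_mem _ _
        (Submodule.subset_span ⟨a, rfl⟩)
    by_contra hcon
    push Not at hcon
    have hli : LinearIndependent F (fun i : ℕ => (c.V (l b))^[i] (η b)) := by
      rw [linearIndependent_iff']
      intro t g hg
      by_contra hne
      push Not at hne
      obtain ⟨i0, hi0, hgi0⟩ := hne
      -- the maximal index with nonzero coefficient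
      have hne' : (t.filter fun i => g i ≠ 0).Nonempty := ⟨i0, mem_filter.2 ⟨hi0, hgi0⟩⟩
      set k := (t.filter fun i => g i ≠ 0).max' hne' with hkdef
      have hkm := (t.filter fun i => g i ≠ 0).max'_mem hne'
      rw [← hkdef, mem_filter] at hkm
      apply hcon k
      have h3 : g k • (c.V (l b))^[k] (η b) = - ∑ i ∈ t.erase k, g i • (c.V (l b))^[i] (η b) := by
        rw [eq_neg_iff_add_eq_zero, ← hg]
        exact add_sum_erase t (fun i => g i • (c.V (l b))^[i] (η b)) hkm.1
      have h4 : g k • (c.V (l b))^[k] (η b) ∈
          Submodule.span F {x | ∃ i < k, x = (c.V (l b))^[i] (η b)} := by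
        rw [h3]
        apply Submodule.neg_mem
        apply Submodule.sum_mem
        intro i hi
        rw [mem_erase] at hi
        by_cases h0 : g i = 0
        · rw [h0, zero_smul]; exact Submodule.zero_mem _
        · apply Submodule.smul_mem
          apply Submodule.subset_span
          refine ⟨i, ?_, rfl⟩
          have := (t.filter fun i => g i ≠ 0).le_max' i (mem_filter.2 ⟨hi.2, h0⟩)
          exact lt_of_le_of_ne this hi.1
      have := Submodule.smul_mem _ (g k)⁻¹ h4
      rwa [smul_smul, inv_mul_cancel₀ hkm.2, one_smul] at this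
    have hli' : LinearIndependent F (fun i : ℕ => (⟨(c.V (l b))^[i] (η b), hZm i⟩ : Z)) :=
      LinearIndependent.of_comp Z.subtype hli
    exact (hli'.finite.false : False)
  choose k hk using hk
  have hη : ∀ b, (c.V (l b))^[k b] (η b) ∈ c.L (k b) (Set.range η) := by
    intro b
    have h3 : Submodule.span F {x | ∃ i < k b, x = (c.V (l b))^[i] (η b)} ≤
        c.L (k b) (Set.range η) := by
      apply Submodule.span_le.2
      rintro x ⟨i, hi, rfl⟩
      have : ∀ i, (c.V (l b))^[i] (η b) ∈ c.L (i + 1) (Set.range η) := by
        intro i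
        induction i with
        | zero => exact c.self_mem (Set.mem_range_self b)
        | succ n ih => rw [Function.iterate_succ_apply']; exact c.V_L _ ih
      exact c.L_mono hi subset_rfl (this i)
    exact h3 (hk b)
  have hsum : ∑ b, η b = ∑ a, s a • z a := by
    simp only [η]
    exact sum_fiberwise_of_maps_to (fun a _ => mem_univ (cls a)) _
  obtain ⟨W, hWf, hWη, hW1, hW2⟩ := c.web_finite l hl k η hη (by rw [hsum]; exact h1)
    (by rw [hsum]; exact h2)
  refine ⟨W, hWf, fun a => ?_, hW1, hW2⟩
  have hSW : S (cls a) ≤ W := by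
    apply Submodule.span_le.2
    rintro x ⟨i, rfl⟩
    show (c.V (l (cls a)))^[i] (η (cls a)) ∈ W
    induction i with
    | zero => exact hWη _
    | succ n ih =>
      rw [Function.iterate_succ_apply']
      exact W.add_mem (hW1 _ ih) (W.smul_mem _ (hW2 _ ih))
  exact hSW (hzS a)

end Conn

end Vale.Agent.P097.H367.FR
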