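import Mathlib
import Vale.Agent.P097.H367.FR.Chain
import Vale.Agent.P097.H367.FR.Class

/-!
# Closed words: the mirror of a letter which is alone in its class satisfies an algebraic ODE
-/

namespace Vale.Agent.P097.H367.FR

open Finset

variable {K M : Type*} [Field K] [Field M] [Algebra K M]

/-- The jets `y, dy/dx, d²y/dx², …` along the derivation `d`. -/
def jet (d : Derivation ℤ M M) (x y : M) : ℕ → M
  | 0 => y
  | k + 1 => d (jet d x y k) / d x

/-- If the contact form `dy - y' dx` lies in a finite dimensional stable space of differentials,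
the curve `(x, y)` is of finite type. -/
theorem finite_type [CharZero K] (d1 d2 : Derivation ℤ M M)
    (h1 : ∀ k : K, ∃ k' : K, d1 (algebraMap K M k) = algebraMap K M k')
    (h2 : ∀ k : K, ∃ k' : K, d2 (algebraMap K M k) = algebraMap K M k')
    (hc : ∀ x, d1 (d2 x) = d2 (d1 x))
    (W : Submodule M (Om K M)) [FiniteDimensional M W]
    (hW : ∀ ω ∈ W, (conn d1 d2 h1 h2 hc).D2 ω ∈ W) {x y : M} (hx : d2 x ≠ 0)
    (h0 : dif y - (d2 y / d2 x) • dif x ∈ W) :
    ∃ N : ℕ, ∀ (m : ℕ) (f : Fin m → M),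
      (∀ i, f i ∈ IntermediateField.adjoin K (insert x (Set.range (jet d2 x y)))) →
      AlgebraicIndependent K f → m ≤ N := by
  have D2d : ∀ x : M, (conn d1 d2 h1 h2 hc).D2 (dif x) = dif (d2 x) := fun x => lie_dif d2 h2 x
  have key : ∀ k, dif (jet d2 x y k) - jet d2 x y (k + 1) • dif x ∈ W := by
    intro k
    induction k with
    | zero => exact h0
    | succ k ih =>
      have e1 : d2 (jet d2 x y k) = jet d2 x y (k + 1) * d2 x := by
        simp only [jet]
        field_simp
      have e3 : d2 (jet d2 x y (k + 1)) = jet d2 x y (k + 2) * d2 x := by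
        have : jet d2 x y (k + 2) = d2 (jet d2 x y (k + 1)) / d2 x := rfl
        rw [this]
        field_simp
      have h := hW _ ih
      rw [map_sub, (conn d1 d2 h1 h2 hc).leib2, D2d, D2d, e1, Derivation.leibniz] at h
      have e2 : (conn d1 d2 h1 h2 hc).d2 (jet d2 x y (k + 1)) = jet d2 x y (k + 2) * d2 x := e3
      rw [e2] at h
      have h' := W.smul_mem (d2 x)⁻¹ h
      have e4 : (d2 x)⁻¹ • (jet d2 x y (k + 1) • dif (d2 x) + d2 x • dif (jet d2 x y (k + 1)) -
          ((jet d2 x y (k + 2) * d2 x) • dif x + jet d2 x y (k + 1) • dif (d2 x))) =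
          dif (jet d2 x y (k + 1)) - jet d2 x y (k + 1 + 1) • (dif x : Om K M) := by
        match_scalars
        · ring
        · field_simp
        · field_simp
      rw [e4] at h'
      exact h'
  let W' : Submodule M (Om K M) := W ⊔ Submodule.span M {dif x}
  have hfin : FiniteDimensional M W' := by
    have : FiniteDimensional M (Submodule.span M {(dif x : Om K M)}) :=
      FiniteDimensional.span_of_finite M (Set.finite_singleton _)
    exact Submodule.finiteDimensional_sup _ _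
  refine ⟨Module.finrank M W', fun m f hf hi => ?_⟩
  apply card_le_of_mem (W := W') hi
  intro i
  have hle : IntermediateField.adjoin K (insert x (Set.range (jet d2 x y))) ≤ difField W' := by
    rw [IntermediateField.adjoin_le_iff]
    have hxW : (dif x : Om K M) ∈ W' :=
      Submodule.mem_sup_right (Submodule.subset_span (Set.mem_singleton _))
    intro u hu
    rcases hu with rfl | ⟨k, rfl⟩
    · exact hxW
    · have := W'.add_mem (Submodule.mem_sup_left (key k)) (W'.smul_mem (jet d2 x y (k + 1)) hxW)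
      rw [sub_add_cancel] at this
      exact this
  exact hle (hf i)

/-- The contact form of a letter. -/
def ctf (p q e : ℕ → M) (j : ℕ) : Om K M := dif (p j) - (e j * e (j + 1)) • dif (q j)

lemma V_ctf {d1 d2 : Derivation ℤ M M} {n : ℕ} {p q e : ℕ → M}
    (h : IsChain d1 d2 n p q e)
    (h1 : ∀ k : K, ∃ k' : K, d1 (algebraMap K M k) = algebraMap K M k')
    (h2 : ∀ k : K, ∃ k' : K, d2 (algebraMap K M k) = algebraMap K M k')
    (hc : ∀ x, d1 (d2 x) = d2 (d1 x)) {j : ℕ} (hj : j < n) (hq : d2 (q j) ≠ 0) :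
    (conn d1 d2 h1 h2 hc).D1 (ctf p q e j) +
      (-(d1 (q j) / d2 (q j))) • (conn d1 d2 h1 h2 hc).D2 (ctf p q e j) = 0 := by
  set c : Conn M (Om K M) := conn d1 d2 h1 h2 hc with hcdef
  have D1d : ∀ x : M, c.D1 (dif x) = dif (d1 x) := fun x => lie_dif d1 h1 x
  have D2d : ∀ x : M, c.D2 (dif x) = dif (d2 x) := fun x => lie_dif d2 h2 x
  have hd1 : c.d1 = d1 := rfl
  have hd2 : c.d2 = d2 := rfl
  have e1 : c.D1 (ctf p q e j) = d1 (q j) • dif (e j * e (j + 1)) -
      d1 (e j * e (j + 1)) • dif (q j) := by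
    simp only [ctf]
    rw [map_sub, c.leib1, D1d, D1d, hd1, h.r1 j hj, Derivation.leibniz]
    abel
  have e2 : c.D2 (ctf p q e j) = d2 (q j) • dif (e j * e (j + 1)) -
      d2 (e j * e (j + 1)) • dif (q j) := by
    simp only [ctf]
    rw [map_sub, c.leib2, D2d, D2d, hd2, h.r2 j hj, Derivation.leibniz]
    abel
  have e3 : d1 (e j * e (j + 1)) * d2 (q j) = d2 (e j * e (j + 1)) * d1 (q j) := by
    have a := hc (p j)
    have a1 := d1.leibniz (e j * e (j + 1)) (d2 (q j))
    have a2 := d2.leibniz (e j * e (j + 1)) (d1 (q j))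
    rw [h.r2 j hj, h.r1 j hj, a1, a2, hc (q j)] at a
    simp only [smul_eq_mul] at a
    linear_combination a
  rw [e1, e2]
  have e4 : d1 (e j * e (j + 1)) = d1 (q j) / d2 (q j) * d2 (e j * e (j + 1)) := by
    field_simp
    linear_combination e3
  rw [e4]
  match_scalars
  · field_simp
    ring
  · ring

/-- **Finite type from a closed word.** Two chains with the same outer lines; letters indexed by
`Fin n ⊕ Fin n'`; `gr` groups the equivalent letters, `cls` groups the coinciding foliations. -/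
theorem closed_finite_type [CharZero K] {d1 d2 : Derivation ℤ M M} {n n' : ℕ}
    {p q e p' q' e' : ℕ → M}
    (h : IsChain d1 d2 n p q e) (h' : IsChain d1 d2 n' p' q' e') (hn : 0 < n) (hn' : 0 < n')
    (h1 : ∀ k : K, ∃ k' : K, d1 (algebraMap K M k) = algebraMap K M k')
    (h2 : ∀ k : K, ∃ k' : K, d2 (algebraMap K M k) = algebraMap K M k')
    (hc : ∀ x, d1 (d2 x) = d2 (d1 x))
    (o1 : e 0 = e' 0) (o2 : p 0 - e 0 ^ 2 * q 0 = p' 0 - e' 0 ^ 2 * q' 0)
    (o3 : e n = e' n') (o4 : p (n - 1) - e n ^ 2 * q (n - 1) =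
      p' (n' - 1) - e' n' ^ 2 * q' (n' - 1))
    (hq : ∀ j < n, d2 (q j) ≠ 0) (hq' : ∀ j < n', d2 (q' j) ≠ 0)
    {G β : Type*} [Fintype G] [DecidableEq G] [Fintype β] [DecidableEq β]
    (gr : Fin n ⊕ Fin n' → G) (cls : G → β) (l : β → M) (hl : Function.Injective l)
    (s : G → M) (cc : Fin n ⊕ Fin n' → M)
    (hsl : ∀ j : Fin n, -(d1 (q j) / d2 (q j)) = l (cls (gr (Sum.inl j))))
    (hsl' : ∀ j : Fin n', -(d1 (q' j) / d2 (q' j)) = l (cls (gr (Sum.inr j))))
    (hcc : ∀ i, d1 (cc i) + l (cls (gr i)) * d2 (cc i) = 0)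
    (hκ : ∀ j : Fin n, (e j)⁻¹ - (e (j + 1))⁻¹ = cc (Sum.inl j) * s (gr (Sum.inl j)))
    (hκ' : ∀ j : Fin n', -((e' j)⁻¹ - (e' (j + 1))⁻¹) = cc (Sum.inr j) * s (gr (Sum.inr j)))
    (hs : ∀ b, ∀ g : G → M, (∀ a, d1 (g a) + l b * d2 (g a) = 0) →
      ∑ a with cls a = b, g a * s a = 0 → ∀ a, cls a = b → g a = 0) :
    (∀ j : Fin n, (∀ i, gr i = gr (Sum.inl j) → i = Sum.inl j) →
      ∃ N : ℕ, ∀ (m : ℕ) (f : Fin m → M),
        (∀ i, f i ∈ IntermediateField.adjoin K
          (insert (q j) (Set.range (jet d2 (q j) (p j))))) →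
        AlgebraicIndependent K f → m ≤ N) ∧
    (∀ j : Fin n', (∀ i, gr i = gr (Sum.inr j) → i = Sum.inr j) →
      ∃ N : ℕ, ∀ (m : ℕ) (f : Fin m → M),
        (∀ i, f i ∈ IntermediateField.adjoin K
          (insert (q' j) (Set.range (jet d2 (q' j) (p' j))))) →
        AlgebraicIndependent K f → m ≤ N) := by
  classical
  set c : Conn M (Om K M) := conn d1 d2 h1 h2 hc with hcdef
  have D1d : ∀ x : M, c.D1 (dif x) = dif (d1 x) := fun x => lie_dif d1 h1 x
  have D2d : ∀ x : M, c.D2 (dif x) = dif (d2 x) := fun x => lie_dif d2 h2 x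
  let ζ : Fin n ⊕ Fin n' → Om K M := Sum.elim (fun j => ctf p q e j) (fun j => ctf p' q' e' j)
  let κ : Fin n ⊕ Fin n' → M := Sum.elim (fun j => (e j)⁻¹ - (e (j + 1))⁻¹)
    (fun j => -((e' j)⁻¹ - (e' (j + 1))⁻¹))
  have hκκ : ∀ i, κ i = cc i * s (gr i) := by
    rintro (j | j)
    · exact hκ j
    · exact hκ' j
  have hVζ : ∀ i, c.V (l (cls (gr i))) (ζ i) = 0 := by
    rintro (j | j)
    · rw [← hsl j]
      exact V_ctf h h1 h2 hc j.2 (hq j j.2)
    · rw [← hsl' j]
      exact V_ctf h' h1 h2 hc j.2 (hq' j j.2)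
  let z : G → Om K M := fun A => ∑ i with gr i = A, cc i • ζ i
  have hz : ∀ A, c.D1 (z A) + l (cls A) • c.D2 (z A) = 0 := by
    intro A
    show c.V (l (cls A)) (z A) = 0
    simp only [z]
    rw [c.V_sum]
    apply sum_eq_zero
    intro i hi
    have hA := (mem_filter.1 hi).2
    rw [← hA, c.V_smul, hVζ, smul_zero, add_zero]
    have : c.d1 (cc i) + l (cls (gr i)) * c.d2 (cc i) = 0 := hcc i
    rw [this, zero_smul]
  -- the sum is the differential of the difference of the lengths
  have var1 : ∀ {X : Type _} [AddCommGroup X] [Module M X] (δ : Derivation ℤ M X),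
      δ (IsChain.len n p q e - IsChain.len n' p' q' e') =
      ∑ j ∈ range n, ((e j)⁻¹ - (e (j + 1))⁻¹) • (δ (p j) - (e j * e (j + 1)) • δ (q j)) -
      ∑ j ∈ range n', ((e' j)⁻¹ - (e' (j + 1))⁻¹) •
        (δ (p' j) - (e' j * e' (j + 1)) • δ (q' j)) := by
    intro X _ _ δ
    rw [map_sub, IsChain.var δ h.e_ne h.inc hn, IsChain.var δ h'.e_ne h'.inc hn', o2, o4, o1, o3]
    abel
  have hsum : ∑ A, s A • z A = dif (IsChain.len n p q e - IsChain.len n' p' q' e') := by
    have v := var1 ((dif : Derivation K M (Om K M)).restrictScalars ℤ)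
    simp only [Derivation.restrictScalars_apply] at v
    rw [v]
    have e1 : ∑ A, s A • z A = ∑ i, κ i • ζ i := by
      simp only [z, smul_sum]
      rw [← sum_fiberwise_of_maps_to (s := univ) (t := univ) (g := gr) (fun i _ => mem_univ _)]
      apply sum_congr rfl
      intro A _
      apply sum_congr rfl
      intro i hi
      rw [hκκ, smul_smul, (mem_filter.1 hi).2, mul_comm]
    have e5 : ∑ j : Fin n, κ (Sum.inl j) • ζ (Sum.inl j) =
        ∑ j ∈ range n, ((e j)⁻¹ - (e (j + 1))⁻¹) •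
          (dif (p j) - (e j * e (j + 1)) • (dif (q j) : Om K M)) :=
      Fin.sum_univ_eq_sum_range (fun j => ((e j)⁻¹ - (e (j + 1))⁻¹) •
        (dif (p j) - (e j * e (j + 1)) • (dif (q j) : Om K M))) n
    have e6 : ∑ j : Fin n', κ (Sum.inr j) • ζ (Sum.inr j) =
        -∑ j ∈ range n', ((e' j)⁻¹ - (e' (j + 1))⁻¹) •
          (dif (p' j) - (e' j * e' (j + 1)) • (dif (q' j) : Om K M)) := by
      rw [← Fin.sum_univ_eq_sum_range (fun j => ((e' j)⁻¹ - (e' (j + 1))⁻¹) •
        (dif (p' j) - (e' j * e' (j + 1)) • (dif (q' j) : Om K M))) n', ← sum_neg_distrib]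
      apply sum_congr rfl
      intro j _
      exact neg_smul ((e' j)⁻¹ - (e' (j + 1))⁻¹)
        (dif (p' j) - (e' j * e' (j + 1)) • (dif (q' j) : Om K M))
    rw [e1, Fintype.sum_sum_type, e5, e6, sub_eq_add_neg]
  have z1 : d1 (IsChain.len n p q e - IsChain.len n' p' q' e') = 0 := by
    rw [var1 d1, sum_eq_zero, sum_eq_zero, sub_zero]
    · intro j hj
      rw [h'.r1 j (mem_range.1 hj)]; simp
    · intro j hj
      rw [h.r1 j (mem_range.1 hj)]; simp
  have z2 : d2 (IsChain.len n p q e - IsChain.len n' p' q' e') = 0 := by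
    rw [var1 d2, sum_eq_zero, sum_eq_zero, sub_zero]
    · intro j hj
      rw [h'.r2 j (mem_range.1 hj)]; simp
    · intro j hj
      rw [h.r2 j (mem_range.1 hj)]; simp
  obtain ⟨W, hWf, hWz, hW1, hW2⟩ := c.web_class d1 d2 (fun _ => rfl) (fun _ => rfl) l hl cls z s
    hz hs (by rw [hsum, D1d, z1, map_zero]) (by rw [hsum, D2d, z2, map_zero])
  have lone : ∀ i, κ i ≠ 0 → (∀ i', gr i' = gr i → i' = i) → ζ i ∈ W := by
    intro i hκi hlone
    have h3 := hWz (gr i)
    have h4 : z (gr i) = cc i • ζ i := by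
      simp only [z]
      rw [sum_eq_single i]
      · intro i' hi' hne
        exact absurd (hlone i' (mem_filter.1 hi').2) hne
      · intro hni
        exact absurd (by simp) hni
    rw [h4] at h3
    have hcci : cc i ≠ 0 := by
      intro h0
      rw [hκκ, h0, zero_mul] at hκi
      exact hκi rfl
    have := W.smul_mem (cc i)⁻¹ h3
    rwa [smul_smul, inv_mul_cancel₀ hcci, one_smul] at this
  have kne : ∀ {a b : M}, a ≠ b → a⁻¹ - b⁻¹ ≠ 0 := by
    intro a b hab h0
    exact hab (inv_injective (sub_eq_zero.1 h0))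
  constructor
  · intro j hj
    have hζ := lone (Sum.inl j) (kne (h.ne j j.2)) hj
    apply finite_type d1 d2 h1 h2 hc W hW2 (hq j j.2)
    have : d2 (p j) / d2 (q j) = e j * e (j + 1) := by
      rw [h.r2 j j.2, mul_div_assoc, div_self (hq j j.2), mul_one]
    rw [this]
    exact hζ
  · intro j hj
    have hζ := lone (Sum.inr j) (neg_ne_zero.2 (kne (h'.ne j j.2))) hj
    apply finite_type d1 d2 h1 h2 hc W hW2 (hq' j j.2)
    have : d2 (p' j) / d2 (q' j) = e' j * e' (j + 1) := by
      rw [h'.r2 j j.2, mul_div_assoc, div_self (hq' j j.2), mul_one]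
    rw [this]
    exact hζ

end Vale.Agent.P097.H367.FR
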