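import Mathlib
import Vale.Agent.P097.H367.FR.Closed
import Vale.Agent.P097.H435.Kummer

/-!
# Closed words: finite type of a letter which is not equivalent to another one
-/

namespace Vale.Agent.P097.H367.FR

open Finset

variable {K M : Type*} [Field K] [Field M] [Algebra K M]

/-- The vector field `d₁ + l d₂`. -/
def vf (d1 d2 : Derivation ℤ M M) (l : M) : Derivation ℤ M M := d1 + l • d2

lemma vf_apply (d1 d2 : Derivation ℤ M M) (l x : M) : vf d1 d2 l x = d1 x + l * d2 x := rfl

/-- slope of a letter -/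
def slp (d1 d2 : Derivation ℤ M M) (q : M) : M := -(d1 q / d2 q)

/-- `(1/e - 1/e')` -/
def kap (e : ℕ → M) (j : ℕ) : M := (e j)⁻¹ - (e (j + 1))⁻¹

lemma kap_ne {d1 d2 : Derivation ℤ M M} {n : ℕ} {p q e : ℕ → M}
    (h : IsChain d1 d2 n p q e) {j : ℕ} (hj : j < n) : kap e j ≠ 0 :=
  fun h0 => h.ne j hj (inv_injective (sub_eq_zero.1 h0))

section area

variable {d1 d2 : Derivation ℤ M M} {n : ℕ} {p q e : ℕ → M}

/-- The area form on a line `(e, m)`. -/
def area (d1 d2 : Derivation ℤ M M) (e m : M) : M := -(d1 m * d2 e - d2 m * d1 e) / e ^ 2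

lemma T_const (h : IsChain d1 d2 n p q e) (hc : ∀ x, d1 (d2 x) = d2 (d1 x)) {j : ℕ}
    (hj : j < n) : d1 (e j * e (j + 1)) * d2 (q j) = d2 (e j * e (j + 1)) * d1 (q j) := by
  have a := hc (p j)
  have a1 := d1.leibniz (e j * e (j + 1)) (d2 (q j))
  have a2 := d2.leibniz (e j * e (j + 1)) (d1 (q j))
  rw [h.r2 j hj, h.r1 j hj, a1, a2, hc (q j)] at a
  simp only [smul_eq_mul] at a
  linear_combination a

lemma two_d (d : Derivation ℤ M M) : d (2 : M) = 0 := by
  have := d.map_natCast 2
  simpa using this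

/-- The area form is preserved, and computed by the letter. -/
lemma area_in [CharZero M] (h : IsChain d1 d2 n p q e) (hc : ∀ x, d1 (d2 x) = d2 (d1 x)) {j : ℕ}
    (hj : j < n) : area d1 d2 (e j) (p j - e j ^ 2 * q j) =
      d1 (q j) * d2 (e j + e (j + 1)) - d2 (q j) * d1 (e j + e (j + 1)) := by
  have hT := T_const h hc hj
  have he := h.e_ne j hj.le
  simp only [Derivation.leibniz, smul_eq_mul] at hT
  have e1 : d1 (p j - e j ^ 2 * q j) = (e j * e (j + 1) - e j ^ 2) * d1 (q j) -
      2 * e j * q j * d1 (e j) := by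
    rw [map_sub, Derivation.leibniz, Derivation.leibniz_pow, h.r1 j hj]
    simp only [smul_eq_mul, nsmul_eq_mul]
    push_cast
    ring
  have e2 : d2 (p j - e j ^ 2 * q j) = (e j * e (j + 1) - e j ^ 2) * d2 (q j) -
      2 * e j * q j * d2 (e j) := by
    rw [map_sub, Derivation.leibniz, Derivation.leibniz_pow, h.r2 j hj]
    simp only [smul_eq_mul, nsmul_eq_mul]
    push_cast
    ring
  rw [area, e1, e2, map_add, map_add, div_eq_iff (pow_ne_zero 2 he)]
  linear_combination e j * hT

lemma area_out [CharZero M] (h : IsChain d1 d2 n p q e) (hc : ∀ x, d1 (d2 x) = d2 (d1 x)) {j : ℕ}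
    (hj : j < n) : area d1 d2 (e (j + 1)) (p j - e (j + 1) ^ 2 * q j) =
      d1 (q j) * d2 (e j + e (j + 1)) - d2 (q j) * d1 (e j + e (j + 1)) := by
  have hT := T_const h hc hj
  have he := h.e_ne (j + 1) hj
  simp only [Derivation.leibniz, smul_eq_mul] at hT
  have e1 : d1 (p j - e (j + 1) ^ 2 * q j) = (e j * e (j + 1) - e (j + 1) ^ 2) * d1 (q j) -
      2 * e (j + 1) * q j * d1 (e (j + 1)) := by
    rw [map_sub, Derivation.leibniz, Derivation.leibniz_pow, h.r1 j hj]
    simp only [smul_eq_mul, nsmul_eq_mul]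
    push_cast
    ring
  have e2 : d2 (p j - e (j + 1) ^ 2 * q j) = (e j * e (j + 1) - e (j + 1) ^ 2) * d2 (q j) -
      2 * e (j + 1) * q j * d2 (e (j + 1)) := by
    rw [map_sub, Derivation.leibniz, Derivation.leibniz_pow, h.r2 j hj]
    simp only [smul_eq_mul, nsmul_eq_mul]
    push_cast
    ring
  rw [area, e1, e2, map_add, map_add, div_eq_iff (pow_ne_zero 2 he)]
  linear_combination e (j + 1) * hT

/-- The area form of every letter is that of the first line. -/
lemma area_eq [CharZero M] (h : IsChain d1 d2 n p q e) (hc : ∀ x, d1 (d2 x) = d2 (d1 x)) {j : ℕ}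
    (hj : j < n) : d1 (q j) * d2 (e j + e (j + 1)) - d2 (q j) * d1 (e j + e (j + 1)) =
      area d1 d2 (e 0) (p 0 - e 0 ^ 2 * q 0) := by
  induction j with
  | zero => rw [area_in h hc hj]
  | succ k ih =>
    rw [← ih (by omega), ← area_out h hc (by omega : k < n), ← area_in h hc hj, h.inc k hj]

/-- `T = e e'` is constant on the foliation. -/
lemma vf_T (h : IsChain d1 d2 n p q e) (hc : ∀ x, d1 (d2 x) = d2 (d1 x)) {j : ℕ}
    (hj : j < n) (hq : d2 (q j) ≠ 0) :
    vf d1 d2 (slp d1 d2 (q j)) (e j * e (j + 1)) = 0 := by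
  rw [vf_apply, slp]
  have := T_const h hc hj
  field_simp
  linear_combination this

lemma vf_q {x : M} (hq : d2 x ≠ 0) : vf d1 d2 (slp d1 d2 x) x = 0 := by
  rw [vf_apply, slp]
  field_simp
  ring

/-- derivative of `d₂ q` along the foliation -/
lemma vf_dq (hc : ∀ x, d1 (d2 x) = d2 (d1 x)) {x : M} (hq : d2 x ≠ 0) :
    vf d1 d2 (slp d1 d2 x) (d2 x) = - d2 (slp d1 d2 x) * d2 x := by
  have h := congrArg d2 (vf_q (d1 := d1) hq)
  rw [vf_apply, map_zero, map_add, Derivation.leibniz, smul_eq_mul, smul_eq_mul] at h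
  rw [vf_apply, hc]
  linear_combination h

lemma vf_ratio (hc : ∀ x, d1 (d2 x) = d2 (d1 x)) {x y : M} (hx : d2 x ≠ 0) (hy : d2 y ≠ 0)
    (hxy : slp d1 d2 x = slp d1 d2 y) : vf d1 d2 (slp d1 d2 x) (d2 x / d2 y) = 0 := by
  have h1 := vf_dq (d1 := d1) hc hx
  have h2 := vf_dq (d1 := d1) hc hy
  rw [← hxy] at h2
  rw [div_eq_mul_inv, Derivation.leibniz, Derivation.leibniz_inv, h1, h2]
  simp only [smul_eq_mul]
  field_simp
  ring

/-- derivative of `u = (e + e')/2` along the foliation -/
lemma vf_u [CharZero M] (h : IsChain d1 d2 n p q e) (hc : ∀ x, d1 (d2 x) = d2 (d1 x)) {j : ℕ}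
    (hj : j < n) (hq : d2 (q j) ≠ 0) :
    d2 (q j) * vf d1 d2 (slp d1 d2 (q j)) ((e j + e (j + 1)) / 2) =
      -(area d1 d2 (e 0) (p 0 - e 0 ^ 2 * q 0)) / 2 := by
  rw [← area_eq h hc hj, vf_apply, slp, div_eq_mul_inv (e j + e (j + 1)), Derivation.leibniz,
    Derivation.leibniz, Derivation.leibniz_inv, Derivation.leibniz_inv, two_d, two_d]
  simp only [smul_eq_mul]
  field_simp
  ring

end area

/-- **Finite type from a closed word**, with the equivalence relation explicit. -/
theorem closed_finite_type' [CharZero K] [CharZero M]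
    {d1 d2 : Derivation ℤ M M} {n n' : ℕ} {p q e p' q' e' : ℕ → M}
    (h : IsChain d1 d2 n p q e) (h' : IsChain d1 d2 n' p' q' e') (hn : 0 < n) (hn' : 0 < n')
    (h1 : ∀ k : K, ∃ k' : K, d1 (algebraMap K M k) = algebraMap K M k')
    (h2 : ∀ k : K, ∃ k' : K, d2 (algebraMap K M k) = algebraMap K M k')
    (hc : ∀ x, d1 (d2 x) = d2 (d1 x))
    (o1 : e 0 = e' 0) (o2 : p 0 - e 0 ^ 2 * q 0 = p' 0 - e' 0 ^ 2 * q' 0)
    (o3 : e n = e' n') (o4 : p (n - 1) - e n ^ 2 * q (n - 1) =
      p' (n' - 1) - e' n' ^ 2 * q' (n' - 1))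
    (hA : area d1 d2 (e 0) (p 0 - e 0 ^ 2 * q 0) ≠ 0)
    (hq : ∀ j < n, d2 (q j) ≠ 0) (hq' : ∀ j < n', d2 (q' j) ≠ 0) :
    (∀ j < n, (∀ i < n, i ≠ j → slp d1 d2 (q i) = slp d1 d2 (q j) →
        vf d1 d2 (slp d1 d2 (q j)) (kap e i / kap e j) ≠ 0) →
      (∀ i < n', slp d1 d2 (q' i) = slp d1 d2 (q j) →
        vf d1 d2 (slp d1 d2 (q j)) (kap e' i / kap e j) ≠ 0) →
      ∃ N : ℕ, ∀ (m : ℕ) (f : Fin m → M),
        (∀ i, f i ∈ IntermediateField.adjoin K
          (insert (q j) (Set.range (jet d2 (q j) (p j))))) →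
        AlgebraicIndependent K f → m ≤ N) ∧
    (∀ j < n', (∀ i < n', i ≠ j → slp d1 d2 (q' i) = slp d1 d2 (q' j) →
        vf d1 d2 (slp d1 d2 (q' j)) (kap e' i / kap e' j) ≠ 0) →
      (∀ i < n, slp d1 d2 (q i) = slp d1 d2 (q' j) →
        vf d1 d2 (slp d1 d2 (q' j)) (kap e i / kap e' j) ≠ 0) →
      ∃ N : ℕ, ∀ (m : ℕ) (f : Fin m → M),
        (∀ i, f i ∈ IntermediateField.adjoin K
          (insert (q' j) (Set.range (jet d2 (q' j) (p' j))))) →
        AlgebraicIndependent K f → m ≤ N) := by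
  classical
  let Q : Fin n ⊕ Fin n' → M := Sum.elim (fun j => q j) (fun j => q' j)
  let κ : Fin n ⊕ Fin n' → M := Sum.elim (fun j => kap e j) (fun j => -kap e' j)
  let U : Fin n ⊕ Fin n' → M := Sum.elim (fun j => (e j + e (j + 1)) / 2)
    (fun j => (e' j + e' (j + 1)) / 2)
  let T : Fin n ⊕ Fin n' → M := Sum.elim (fun j => e j * e (j + 1)) (fun j => e' j * e' (j + 1))
  let lam : Fin n ⊕ Fin n' → M := fun i => slp d1 d2 (Q i)
  have hQ : ∀ i, d2 (Q i) ≠ 0 := by
    rintro (j | j)
    · exact hq j j.2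
    · exact hq' j j.2
  have hκ : ∀ i, κ i ≠ 0 := by
    rintro (j | j)
    · exact kap_ne h j.2
    · exact neg_ne_zero.2 (kap_ne h' j.2)
  have hT0 : ∀ i, T i ≠ 0 := by
    rintro (j | j)
    · exact mul_ne_zero (h.e_ne j j.2.le) (h.e_ne (j + 1) j.2)
    · exact mul_ne_zero (h'.e_ne j j.2.le) (h'.e_ne (j + 1) j.2)
  have hVT : ∀ i, vf d1 d2 (lam i) (T i) = 0 := by
    rintro (j | j)
    · exact vf_T h hc j.2 (hq j j.2)
    · exact vf_T h' hc j.2 (hq' j j.2)
  set A : M := area d1 d2 (e 0) (p 0 - e 0 ^ 2 * q 0) with hAdef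
  have hVU : ∀ i, d2 (Q i) * vf d1 d2 (lam i) (U i) = -A / 2 := by
    rintro (j | j)
    · exact vf_u h hc j.2 (hq j j.2)
    · have := vf_u h' hc j.2 (hq' j j.2)
      rw [← o2, ← o1] at this
      exact this
  -- `κ T / 2 = ± v`, `v² = U² - T`
  have hκ2 : ∀ i, (κ i * T i / 2) ^ 2 = U i ^ 2 - T i := by
    rintro (j | j)
    · simp only [κ, T, U, Sum.elim_inl, kap]
      have a1 := h.e_ne j j.2.le
      have a2 := h.e_ne (j + 1) j.2
      field_simp
      ring
    · simp only [κ, T, U, Sum.elim_inr, kap]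
      have a1 := h'.e_ne j j.2.le
      have a2 := h'.e_ne (j + 1) j.2
      field_simp
      ring
  let R : Fin n ⊕ Fin n' → Fin n ⊕ Fin n' → Prop := fun i j =>
    lam i = lam j ∧ vf d1 d2 (lam i) (κ i / κ j) = 0
  have hRe : Equivalence R := by
    refine ⟨fun i => ⟨rfl, ?_⟩, fun {i j} hij => ⟨hij.1.symm, ?_⟩, fun {i j k} hij hjk =>
      ⟨hij.1.trans hjk.1, ?_⟩⟩
    · rw [div_self (hκ i), Derivation.map_one_eq_zero]
    · have := hij.2
      rw [← hij.1, ← inv_div, Derivation.leibniz_inv, this, smul_zero]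
    · have e1 : κ i / κ k = (κ i / κ j) * (κ j / κ k) := by
        have := hκ j
        have := hκ k
        field_simp
      have h4 := hjk.2
      rw [← hij.1] at h4
      rw [e1, Derivation.leibniz, hij.2, h4, smul_zero, smul_zero, add_zero]
  let st : Setoid (Fin n ⊕ Fin n') := ⟨R, hRe⟩
  let _ : Fintype (Quotient st) := Fintype.ofFinite _
  have hout : ∀ i, R (Quotient.out (⟦i⟧ : Quotient st)) i := fun i => Quotient.mk_out i
  have hinj : Function.Injective (Quotient.out : Quotient st → _) := Quotient.out_injective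
  have main := closed_finite_type (K := K) h h' hn hn' h1 h2 hc o1 o2 o3 o4 hq hq'
    (G := Quotient st) (β := {x // x ∈ univ.image lam})
    (fun i => ⟦i⟧) (fun a => ⟨lam a.out, mem_image_of_mem lam (mem_univ _)⟩) (fun b => b.1)
    Subtype.val_injective (fun a => κ a.out) (fun i => κ i / κ (Quotient.out (⟦i⟧ : Quotient st)))
    (fun j => (hout (Sum.inl j)).1.symm) (fun j => (hout (Sum.inr j)).1.symm)
    (fun i => by
      have := (hRe.symm (hout i)).2
      rw [← (hout i).1] at this
      exact this)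
    (fun j => by
      have := hκ (Quotient.out (⟦Sum.inl j⟧ : Quotient st))
      rw [div_mul_cancel₀ _ this]
      rfl)
    (fun j => by
      have := hκ (Quotient.out (⟦Sum.inr j⟧ : Quotient st))
      rw [div_mul_cancel₀ _ this]
      rfl)
    (by
      intro b g hg hsum a hab
      -- the elements of the class
      set t : Finset (Quotient st) := univ.filter
        (fun a : Quotient st => (⟨lam a.out, mem_image_of_mem lam (mem_univ _)⟩ :
          {x // x ∈ univ.image lam}) = b) with ht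
      have hlam : ∀ a ∈ t, lam a.out = b.1 := fun a ha => congrArg Subtype.val (mem_filter.1 ha).2
      have ha : a ∈ t := mem_filter.2 ⟨mem_univ _, hab⟩
      have hgV : ∀ a, vf d1 d2 b.1 (g a) = 0 := hg
      -- the reference letter
      have hVQ : ∀ a' ∈ t, vf d1 d2 b.1 (d2 (Q a.out) / d2 (Q a'.out)) = 0 := by
        intro a' ha'
        have := vf_ratio hc (hQ a.out) (hQ a'.out) (show lam a.out = lam a'.out by
          rw [hlam a ha, hlam a' ha'])
        have e1 : slp d1 d2 (Q a.out) = b.1 := hlam a ha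
        rw [e1] at this
        exact this
      have hu : vf d1 d2 b.1 (U a.out) ≠ 0 := by
        intro h3
        have := hVU a.out
        rw [hlam a ha, h3, mul_zero] at this
        apply hA
        have h4 : -A / 2 = 0 := this.symm
        simpa using h4
      have hVr : ∀ a' ∈ t, vf d1 d2 b.1 (U a'.out) =
          d2 (Q a.out) / d2 (Q a'.out) * vf d1 d2 b.1 (U a.out) := by
        intro a' ha'
        have h3 := hVU a.out
        have h4 := hVU a'.out
        rw [hlam a ha] at h3
        rw [hlam a' ha'] at h4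
        have h5 := hQ a'.out
        rw [div_mul_eq_mul_div, eq_div_iff h5, h3, mul_comm, h4]
      have hVT' : ∀ a' ∈ t, vf d1 d2 b.1 (T a'.out) = 0 := by
        intro a' ha'
        have := hVT a'.out
        rw [hlam a' ha'] at this
        exact this
      have kk := H435.Kum.kummer (ι := Quotient st) (vf d1 d2 b.1) (U a.out) hu t
        (fun a' => κ a'.out * T a'.out / 2) (fun a' => d2 (Q a.out) / d2 (Q a'.out))
        (fun a' => U a'.out - d2 (Q a.out) / d2 (Q a'.out) * U a.out)
        (fun a' => T a'.out)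
        (fun a' ha' => ⟨by rw [hκ2]; ring, hVQ a' ha', by
          rw [map_sub, Derivation.leibniz, hVQ a' ha', hVr a' ha']
          simp, hVT' a' ha', div_ne_zero (hQ _) (hQ _), hT0 _⟩)
        (fun i hi j hj hij h0 => by
          apply hij
          rw [← Quotient.out_equiv_out]
          refine ⟨(hlam i hi).trans (hlam j hj).symm, ?_⟩
          show vf d1 d2 (lam i.out) (κ i.out / κ j.out) = 0
          rw [hlam i hi]
          have e1 : κ i.out / κ j.out =
              (κ i.out * T i.out / 2) / (κ j.out * T j.out / 2) * (T j.out / T i.out) := by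
            have a1 := hκ i.out
            have a2 := hκ j.out
            have a3 := hT0 i.out
            have a4 := hT0 j.out
            field_simp
          have e2 : vf d1 d2 b.1 (T j.out / T i.out) = 0 := by
            rw [div_eq_mul_inv, Derivation.leibniz, Derivation.leibniz_inv, hVT' i hi, hVT' j hj]
            simp
          rw [e1, Derivation.leibniz, h0, e2]
          simp)
      have k0 := kk (fun a' => if a' ∈ t then 2 * g a' / T a'.out else 0)
        (fun a' => by
          by_cases hm : a' ∈ t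
          · rw [if_pos hm, div_eq_mul_inv, Derivation.leibniz, Derivation.leibniz,
              Derivation.leibniz_inv, hVT' a' hm, hgV, two_d]
            simp
          · rw [if_neg hm, map_zero])
        (by
          rw [← hsum]
          refine sum_congr rfl fun a' ha' => ?_
          rw [if_pos ha']
          have a1 := hT0 a'.out
          field_simp)
        a ha
      rw [if_pos ha] at k0
      rcases div_eq_zero_iff.1 k0 with h3 | h3
      · rcases mul_eq_zero.1 h3 with h4 | h4
        · exact absurd h4 two_ne_zero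
        · exact h4
      · exact absurd h3 (hT0 _))
  have hmk : ∀ i j, (⟦i⟧ : Quotient st) = ⟦j⟧ → R i j := fun i j hij => Quotient.exact hij
  refine ⟨fun j hj H1 H2 => main.1 ⟨j, hj⟩ ?_, fun j hj H1 H2 => main.2 ⟨j, hj⟩ ?_⟩
  · rintro (i | i) hi
    · by_contra hne
      have hij : (i : ℕ) ≠ j := fun h3 => hne (by rw [← Fin.eta i i.2]; simp [h3])
      have h3 := hmk _ _ hi
      refine H1 i i.2 hij h3.1 ?_
      have h5 : slp d1 d2 (q i) = slp d1 d2 (q j) := h3.1
      rw [← h5]
      exact h3.2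
    · exfalso
      have h3 := hmk _ _ hi
      refine H2 i i.2 h3.1 ?_
      have h4 : vf d1 d2 (slp d1 d2 (q' i)) (-kap e' i / kap e j) = 0 := h3.2
      have h5 : slp d1 d2 (q' i) = slp d1 d2 (q j) := h3.1
      rw [← h5]
      rw [neg_div, map_neg, neg_eq_zero] at h4
      exact h4
  · rintro (i | i) hi
    · exfalso
      have h3 := hmk _ _ hi
      refine H2 i i.2 h3.1 ?_
      have h4 : vf d1 d2 (slp d1 d2 (q i)) (kap e i / -kap e' j) = 0 := h3.2
      have h5 : slp d1 d2 (q i) = slp d1 d2 (q' j) := h3.1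
      rw [← h5]
      rw [div_neg, map_neg, neg_eq_zero] at h4
      exact h4
    · by_contra hne
      have hij : (i : ℕ) ≠ j := fun h3 => hne (by rw [← Fin.eta i i.2]; simp [h3])
      have h3 := hmk _ _ hi
      refine H1 i i.2 hij h3.1 ?_
      have h4 : vf d1 d2 (slp d1 d2 (q' i)) (-kap e' i / -kap e' j) = 0 := h3.2
      have h5 : slp d1 d2 (q' i) = slp d1 d2 (q' j) := h3.1
      rw [← h5]
      rw [neg_div_neg_eq] at h4
      exact h4

end Vale.Agent.P097.H367.FR
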