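import Mathlib
import Vale.Agent.P097.H367.FR.Fin

/-!
# Counting: one of the natural letters is free

A natural letter glances at `w = 0` and the slopes of the natural letters are different.  A
transversal letter of the other word is not equivalent to a natural letter, so if the other word
has fewer glancing letters than the natural one, some natural letter is not equivalent to any other
letter.
-/

namespace Vale.Agent.P097.H367.FR

open Finset

variable {R M : Type*} [CommRing R] [Field M] [Algebra R M]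

/-- Two letters with the same slope: a quotient of the `kap`s constant on the foliation.
Evaluation at a point where `κ = 0`, `∂₂ κ = 0`, `∂₁ κ ≠ 0`, `∂₂ q ≠ 0` gives `κ' = 0`. -/
lemma eval_zero {d1 d2 : Derivation ℤ M M} (hinj : Function.Injective (algebraMap R M))
    {C : Type*} [Field C] (ev : R →+* C) {κ κ' q : M} {k k1 k2 k' k1' k2' q1 q2 : R}
    (hk : κ = algebraMap R M k) (hk1 : d1 κ = algebraMap R M k1) (hk2 : d2 κ = algebraMap R M k2)
    (hk' : κ' = algebraMap R M k') (hk1' : d1 κ' = algebraMap R M k1')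
    (hk2' : d2 κ' = algebraMap R M k2')
    (hq1 : d1 q = algebraMap R M q1) (hq2 : d2 q = algebraMap R M q2)
    (e0 : ev k = 0) (e1 : ev k1 ≠ 0) (e2 : ev k2 = 0) (e3 : ev q2 ≠ 0)
    (hV : vf d1 d2 (slp d1 d2 q) (κ' / κ) = 0) : ev k' = 0 := by
  have hq : d2 q ≠ 0 := by
    rw [hq2]
    intro h
    rw [← map_zero (algebraMap R M)] at h
    rw [hinj h, map_zero] at e3
    exact e3 rfl
  have hk0 : κ ≠ 0 := by
    rintro rfl
    rw [map_zero, ← map_zero (algebraMap R M)] at hk1
    rw [← hinj hk1, map_zero] at e1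
    exact e1 rfl
  have key : (d2 q * d1 κ' - d1 q * d2 κ') * κ - κ' * (d2 q * d1 κ - d1 q * d2 κ) = 0 := by
    rw [vf_apply, slp, div_eq_mul_inv κ', Derivation.leibniz, Derivation.leibniz,
      Derivation.leibniz_inv, Derivation.leibniz_inv] at hV
    simp only [smul_eq_mul] at hV
    have := congrArg (fun x => x * (d2 q * κ ^ 2)) hV
    simp only [zero_mul] at this
    rw [← this]
    field_simp
    ring
  rw [hk, hk', hq1, hq2] at key
  rw [hk] at hk1 hk2
  rw [hk'] at hk1' hk2'
  rw [hk1, hk2, hk1', hk2'] at key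
  have key2 : (q2 * k1' - q1 * k2') * k - k' * (q2 * k1 - q1 * k2) = 0 := by
    apply hinj
    rw [map_zero, ← key]
    simp only [map_sub, map_mul]
  have key3 := congrArg ev key2
  simp only [map_sub, map_mul, map_zero, e0, e2, mul_zero, sub_zero, zero_sub, neg_eq_zero]
    at key3
  rcases mul_eq_zero.1 key3 with h | h
  · exact h
  · rcases mul_eq_zero.1 h with h | h
    · exact absurd h e3
    · exact absurd h e1

/-- Different slopes from different values. -/
lemma slp_ne {d1 d2 : Derivation ℤ M M} (hinj : Function.Injective (algebraMap R M))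
    {C : Type*} [Field C] (ev : R →+* C) {q q' : M} {q1 q2 q1' q2' : R}
    (hq1 : d1 q = algebraMap R M q1) (hq2 : d2 q = algebraMap R M q2)
    (hq1' : d1 q' = algebraMap R M q1') (hq2' : d2 q' = algebraMap R M q2')
    (e2 : ev q2 ≠ 0) (e2' : ev q2' ≠ 0) {c c' : C} (hc : ev q1 = c * ev q2)
    (hc' : ev q1' = c' * ev q2') (hne : c ≠ c') : slp d1 d2 q ≠ slp d1 d2 q' := by
  have h2 : d2 q ≠ 0 := by
    rw [hq2]
    intro h
    rw [← map_zero (algebraMap R M)] at h
    rw [hinj h, map_zero] at e2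
    exact e2 rfl
  have h2' : d2 q' ≠ 0 := by
    rw [hq2']
    intro h
    rw [← map_zero (algebraMap R M)] at h
    rw [hinj h, map_zero] at e2'
    exact e2' rfl
  intro h
  rw [slp, slp, neg_inj, div_eq_div_iff h2 h2', hq1, hq2, hq1', hq2', ← map_mul, ← map_mul] at h
  have h3 := congrArg ev (hinj h)
  rw [map_mul, map_mul, hc, hc'] at h3
  apply hne
  have h4 : (c - c') * (ev q2 * ev q2') = 0 := by linear_combination h3
  rcases mul_eq_zero.1 h4 with h5 | h5
  · exact sub_eq_zero.1 h5
  · exact absurd h5 (mul_ne_zero e2 e2')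

/-- **One natural letter is free.**  `bad i` = the letter `i` of the second word glances. -/
theorem exists_free {K : Type*} [Field K] [Algebra K M] [CharZero K] [CharZero M]
    {d1 d2 : Derivation ℤ M M} {n n' : ℕ} {p q e p' q' e' : ℕ → M}
    (h : IsChain d1 d2 n p q e) (h' : IsChain d1 d2 n' p' q' e') (hn : 0 < n) (hn' : 0 < n')
    (h1 : ∀ k : K, ∃ k' : K, d1 (algebraMap K M k) = algebraMap K M k')
    (h2 : ∀ k : K, ∃ k' : K, d2 (algebraMap K M k) = algebraMap K M k')
    (hc : ∀ x, d1 (d2 x) = d2 (d1 x))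
    (o1 : e 0 = e' 0) (o2 : p 0 - e 0 ^ 2 * q 0 = p' 0 - e' 0 ^ 2 * q' 0)
    (o3 : e n = e' n') (o4 : p (n - 1) - e n ^ 2 * q (n - 1) =
      p' (n' - 1) - e' n' ^ 2 * q' (n' - 1))
    (hA : area d1 d2 (e 0) (p 0 - e 0 ^ 2 * q 0) ≠ 0)
    (hq : ∀ j < n, d2 (q j) ≠ 0) (hq' : ∀ j < n', d2 (q' j) ≠ 0)
    (hsl : ∀ i < n, ∀ j < n, i ≠ j → slp d1 d2 (q i) ≠ slp d1 d2 (q j))
    (bad : Finset ℕ) (hbad : bad.card < n)
    (hgood : ∀ i < n', i ∉ bad → ∀ j < n, slp d1 d2 (q' i) = slp d1 d2 (q j) →
      vf d1 d2 (slp d1 d2 (q j)) (kap e' i / kap e j) ≠ 0) :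
    ∃ j < n, ∃ N : ℕ, ∀ (m : ℕ) (f : Fin m → M),
        (∀ i, f i ∈ IntermediateField.adjoin K
          (insert (q j) (Set.range (jet d2 (q j) (p j))))) →
        AlgebraicIndependent K f → m ≤ N := by
  classical
  by_contra hcon
  have hH : ∀ j < n, ∃ i, i ∈ bad ∧ slp d1 d2 (q' i) = slp d1 d2 (q j) := by
    intro j hj
    by_contra hno
    apply hcon
    refine ⟨j, hj, (closed_finite_type' h h' hn hn' h1 h2 hc o1 o2 o3 o4 hA hq hq').1 j hj
      (fun i hi hij hs => absurd hs (hsl i hi j hj hij)) ?_⟩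
    intro i hi hs
    by_cases hb : i ∈ bad
    · exact absurd ⟨i, hb, hs⟩ hno
    · exact hgood i hi hb j hj hs
  choose! F hF1 hF2 using hH
  have : (range n).card ≤ bad.card := by
    refine card_le_card_of_injOn F (fun j hj => hF1 j (by simpa using hj)) ?_
    intro i hi j hj hij
    by_contra hne
    have hi' : i < n := by simpa using hi
    have hj' : j < n := by simpa using hj
    exact hsl i hi' j hj' hne (by rw [← hF2 i hi', ← hF2 j hj', hij])
  rw [card_range] at this
  omega

end Vale.Agent.P097.H367.FR
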