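import Mathlib
import Vale.Agent.P097.H367.FR.Count

/-!
# Evaluation at a point of the axis `s = 0`
-/

namespace Vale.Agent.P097.H367.FR

variable {R M : Type*} [CommRing R] [Field M] [Algebra R M]

lemma vf_quot {d1 d2 : Derivation ℤ M M} {δ1 δ2 : Derivation ℤ R R}
    (hinj : Function.Injective (algebraMap R M))
    (hδ1 : ∀ r, d1 (algebraMap R M r) = algebraMap R M (δ1 r))
    (hδ2 : ∀ r, d2 (algebraMap R M r) = algebraMap R M (δ2 r)) {k' Q y : R} (hy : y ≠ 0)
    (hQ : δ2 Q ≠ 0)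
    (hV : vf d1 d2 (slp d1 d2 (algebraMap R M Q))
      (algebraMap R M k' / algebraMap R M y) = 0) :
    (δ2 Q * δ1 k' - δ1 Q * δ2 k') * y = k' * (δ2 Q * δ1 y - δ1 Q * δ2 y) := by
  have hyM : algebraMap R M y ≠ 0 := by
    rwa [map_ne_zero_iff _ hinj]
  have hQM : algebraMap R M (δ2 Q) ≠ 0 := by
    rwa [map_ne_zero_iff _ hinj]
  rw [vf_apply, slp, div_eq_mul_inv (algebraMap R M k'), Derivation.leibniz, Derivation.leibniz,
    Derivation.leibniz_inv, Derivation.leibniz_inv, hδ1, hδ1, hδ1, hδ2, hδ2, hδ2] at hV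
  apply hinj
  have h3 := congrArg (fun z => z * (algebraMap R M (δ2 Q) * algebraMap R M y ^ 2)) hV
  simp only [zero_mul, smul_eq_mul] at h3
  rw [map_mul, map_mul, map_sub, map_sub, map_mul, map_mul, map_mul, map_mul]
  rw [← sub_eq_zero, ← h3]
  field_simp
  ring

/-- If the quotient `κ' / κ` is constant on the foliation of `Q`, `κ = s ^ N x`, then `κ' = 0` at
the point where `s = 0`, `x ≠ 0`, `∂₂ Q ≠ 0`. -/
lemma eval_zero' [IsDomain R] {d1 d2 : Derivation ℤ M M} {δ1 δ2 : Derivation ℤ R R}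
    (hinj : Function.Injective (algebraMap R M))
    (hδ1 : ∀ r, d1 (algebraMap R M r) = algebraMap R M (δ1 r))
    (hδ2 : ∀ r, d2 (algebraMap R M r) = algebraMap R M (δ2 r))
    {C : Type*} [Field C] (ev : R →+* C) {s x k' Q : R} {N : ℕ} (hN : 1 ≤ N) (hs0 : s ≠ 0)
    (hs1 : δ1 s = 1) (hs2 : δ2 s = 0) (e0 : ev s = 0) (ex : ev x ≠ 0) (eq : ev (δ2 Q) ≠ 0)
    (hNC : (N : C) ≠ 0)
    (hV : vf d1 d2 (slp d1 d2 (algebraMap R M Q))
      (algebraMap R M k' / algebraMap R M (s ^ N * x)) = 0) : ev k' = 0 := by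
  have hx : x ≠ 0 := by
    rintro rfl
    rw [map_zero] at ex
    exact ex rfl
  have hQ : δ2 Q ≠ 0 := by
    intro h
    rw [h, map_zero] at eq
    exact eq rfl
  have key := vf_quot hinj hδ1 hδ2 (mul_ne_zero (pow_ne_zero _ hs0) hx) hQ hV
  have h1 := δ1.leibniz (s ^ N) x
  have h2 := δ2.leibniz (s ^ N) x
  rw [Derivation.leibniz_pow, hs1] at h1
  rw [Derivation.leibniz_pow, hs2] at h2
  simp only [smul_eq_mul, nsmul_eq_mul, mul_one, mul_zero, add_zero] at h1 h2
  rw [h1, h2] at key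
  obtain ⟨n, rfl⟩ : ∃ n, N = n + 1 := ⟨N - 1, by omega⟩
  have key2 : s ^ n * ((δ2 Q * δ1 k' - δ1 Q * δ2 k') * (s * x)) =
      s ^ n * (k' * (δ2 Q * (s * δ1 x + x * ((n + 1 : ℕ) : R)) - δ1 Q * (s * δ2 x))) := by
    have e1 : (n + 1 - 1 : ℕ) = n := by omega
    rw [e1] at key
    linear_combination key
  have key3 := mul_left_cancel₀ (pow_ne_zero n hs0) key2
  have key4 := congrArg ev key3
  simp only [map_mul, map_sub, map_add, e0, zero_mul, mul_zero, sub_zero, zero_add, map_natCast]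
    at key4
  rcases mul_eq_zero.1 key4.symm with h | h
  · exact h
  · rcases mul_eq_zero.1 h with h | h
    · exact absurd h eq
    · rcases mul_eq_zero.1 h with h | h
      · exact absurd h ex
      · exact absurd h hNC

end Vale.Agent.P097.H367.FR
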