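import Mathlib
import Vale.Agent.P097.H367.FR.Closed
import Vale.Agent.P097.H367.FR.Ode

/-!
# The jets of the support function are algebraic over the jets of the curve
-/

namespace Vale.Agent.P097.H367.FR

open MvPolynomial

variable {K M : Type*} [Field K] [Field M] [Algebra K M]

lemma jet_smul {d δ : Derivation ℤ M M} {c : M} (hc : c ≠ 0) (hd : ∀ x, d x = c * δ x) (x y : M)
    (k : ℕ) : jet d x y k = jet δ x y k := by
  induction k with
  | zero => rfl
  | succ k ih =>
    have h1 : jet d x y (k + 1) = d (jet d x y k) / d x := rfl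
    have h2 : jet δ x y (k + 1) = δ (jet δ x y k) / δ x := rfl
    rw [h1, h2, ih, hd, hd, mul_div_mul_left _ _ hc]

/-- A field generated by a set whose derivatives stay in it is stable. -/
lemma adjoin_stable (D : Derivation ℤ M M)
    (hK : ∀ k : K, ∃ k' : K, D (algebraMap K M k) = algebraMap K M k') (S : Set M)
    (hS : ∀ x ∈ S, D x ∈ IntermediateField.adjoin K S) {x : M}
    (hx : x ∈ IntermediateField.adjoin K S) : D x ∈ IntermediateField.adjoin K S := by
  induction hx using IntermediateField.adjoin_induction with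
  | mem x hx => exact hS x hx
  | algebraMap k =>
    obtain ⟨k', hk'⟩ := hK k
    rw [hk']
    exact IntermediateField.algebraMap_mem _ _
  | add x y hx hy ihx ihy =>
    rw [map_add]
    exact add_mem ihx ihy
  | inv x hx ih =>
    rw [Derivation.leibniz_inv, smul_eq_mul]
    exact mul_mem (neg_mem (pow_mem (inv_mem hx) 2)) ih
  | mul x y hx hy ihx ihy =>
    rw [Derivation.leibniz, smul_eq_mul, smul_eq_mul]
    exact add_mem (mul_mem hx ihy) (mul_mem hy ihx)

/-- The sequence `E, H, δH, δ²H, …`. -/
def yy (δ : Derivation ℤ M M) (E H : M) : ℕ → M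
  | 0 => E
  | k + 1 => (δ)^[k] H

/-- If the jets of the curve `(q, p)`, `p = (H + i δH) E`, `q = (H - i δH) E⁻¹`, `δE = iE`, have
finite transcendence degree, so has the sequence `E, H, δH, …`. -/
theorem finite_yy [CharZero M] {I : K} (hI : I ^ 2 = -1) {δ : Derivation ℤ M M}
    (hδ : ∀ k : K, δ (algebraMap K M k) = 0) {E H p q : M} (hE : E ≠ 0)
    (hδE : δ E = algebraMap K M I * E)
    (hp : p = (H + algebraMap K M I * δ H) * E) (hq : q = (H - algebraMap K M I * δ H) * E⁻¹)
    (hq0 : δ q ≠ 0) {N : ℕ}
    (hN : ∀ (m : ℕ) (f : Fin m → M),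
      (∀ i, f i ∈ IntermediateField.adjoin K (insert q (Set.range (jet δ q p)))) →
        AlgebraicIndependent K f → m ≤ N) :
    ∀ m : ℕ, AlgebraicIndependent K (fun i : Fin m => yy δ E H i) → m ≤ N := by
  set i : M := algebraMap K M I with hi
  have hi2 : i ^ 2 = -1 := by rw [hi, ← map_pow, hI, map_neg, map_one]
  have hi0 : i ≠ 0 := by
    intro h
    rw [h] at hi2
    norm_num at hi2
  have hδi : δ i = 0 := hδ I
  set F := IntermediateField.adjoin K (insert q (Set.range (jet δ q p))) with hF
  have e1 : δ p = i * (H + δ (δ H)) * E := by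
    rw [hp, Derivation.leibniz, map_add, Derivation.leibniz, hδE, hδi]
    simp only [smul_eq_mul]
    linear_combination δ H * E * hi2
  have e2 : δ q = -i * (H + δ (δ H)) * E⁻¹ := by
    rw [hq, Derivation.leibniz, map_sub, Derivation.leibniz, Derivation.leibniz_inv, hδE, hδi]
    simp only [smul_eq_mul]
    field_simp
    linear_combination δ H * hi2
  have hρ : H + δ (δ H) ≠ 0 := by
    intro h
    apply hq0
    rw [e2, h]
    ring
  have e3 : jet δ q p 1 = - E ^ 2 := by
    have h1 : jet δ q p 1 = δ p / δ q := rfl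
    rw [h1, e1, e2]
    field_simp
  have e4 : jet δ q p 2 = -2 * i * E ^ 2 / δ q := by
    have h1 : jet δ q p 2 = δ (jet δ q p 1) / δ q := rfl
    rw [h1, e3, map_neg, Derivation.leibniz_pow, hδE]
    simp only [smul_eq_mul, nsmul_eq_mul]
    push_cast
    ring
  have hjF : ∀ k, jet δ q p k ∈ F := fun k =>
    IntermediateField.subset_adjoin _ _ (Set.mem_insert_of_mem _ ⟨k, rfl⟩)
  have hqF : q ∈ F := IntermediateField.subset_adjoin _ _ (Set.mem_insert _ _)
  -- `E` is algebraic over `F`
  have hEF : IsAlgebraic F E := by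
    have h1 : IsAlgebraic F (E ^ 2) := by
      have h2 : E ^ 2 = algebraMap F M ⟨-jet δ q p 1, neg_mem (hjF 1)⟩ := by
        show E ^ 2 = -jet δ q p 1
        rw [e3, neg_neg]
      rw [h2]
      exact isAlgebraic_algebraMap _
    exact h1.of_pow two_pos
  set G := IntermediateField.adjoin K (insert E (insert q (Set.range (jet δ q p)))) with hG
  have hEG : E ∈ G := IntermediateField.subset_adjoin _ _ (Set.mem_insert _ _)
  have hFG : F ≤ G := IntermediateField.adjoin.mono _ _ _ (Set.subset_insert _ _)
  have hiG : i ∈ G := IntermediateField.algebraMap_mem _ _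
  have halg : ∀ x ∈ G, IsAlgebraic F x := by
    intro x hx
    have h1 : G ≤ (algebraicClosure F M).restrictScalars K := by
      rw [hG, IntermediateField.adjoin_le_iff]
      intro u hu
      rcases hu with rfl | hu
      · exact mem_algebraicClosure_iff.2 hEF
      · have h2 : u ∈ F := IntermediateField.subset_adjoin _ _ hu
        exact mem_algebraicClosure_iff.2 (isAlgebraic_algebraMap (⟨u, h2⟩ : F))
    exact mem_algebraicClosure_iff.1 (h1 hx)
  have hqG : δ q ∈ G := by
    have h1 : δ q = -2 * i * E ^ 2 / jet δ q p 2 := by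
      rw [e4]
      field_simp
    rw [h1]
    have h2 : (2 : M) ∈ G := by
      have := natCast_mem G 2
      exact_mod_cast this
    exact div_mem (mul_mem (mul_mem (neg_mem h2) hiG) (pow_mem hEG 2)) (hFG (hjF 2))
  have hst : ∀ x ∈ G, δ x ∈ G := by
    intro x hx
    refine adjoin_stable δ (fun k => ⟨0, by rw [hδ, map_zero]⟩) _ ?_ hx
    intro u hu
    rcases hu with rfl | rfl | ⟨k, rfl⟩
    · rw [hδE]
      exact mul_mem hiG hEG
    · exact hqG
    · have h1 : δ (jet δ q p k) = jet δ q p (k + 1) * δ q := by
        have h2 : jet δ q p (k + 1) = δ (jet δ q p k) / δ q := rfl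
        rw [h2]
        field_simp
      rw [h1]
      exact mul_mem (hFG (hjF _)) hqG
  have hHG : H ∈ G := by
    have h1 : H = (p * E⁻¹ + q * E) / 2 := by
      rw [hp, hq]
      field_simp
      ring
    rw [h1]
    have h2 : (2 : M) ∈ G := by
      have := natCast_mem G 2
      exact_mod_cast this
    have h3 : p ∈ G := hFG (hjF 0)
    exact div_mem (add_mem (mul_mem h3 (inv_mem hEG)) (mul_mem (hFG hqF) hEG)) h2
  have hkG : ∀ k, (δ)^[k] H ∈ G := by
    intro k
    induction k with
    | zero => exact hHG
    | succ k ih =>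
      rw [Function.iterate_succ_apply']
      exact hst _ ih
  intro m hm
  refine alg_le hN _ (fun j => halg _ ?_) hm
  rcases j with ⟨j, hj⟩
  cases j with
  | zero => exact hEG
  | succ k => exact hkG k

end Vale.Agent.P097.H367.FR
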