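import Mathlib
import Vale.Agent.P097.H367.FR.Eval
import Vale.Agent.P097.H367.FR.Jets
import Vale.Agent.P097.H690.Fct.Fld

/-!
# The jets of a composed function in the field of fractions of the analytic functions
-/

namespace Vale.Agent.P097.H367.FR

open Set Filter Topology Metric Vale.Agent.P097.H365 Vale.Agent.P097.H690 MvPolynomial

noncomputable section

variable {U : Set (ℂ × ℂ)} [hU : Dom U]

/-- `∂/∂s` on the field of fractions -/
def ds : Derivation ℤ (Mf U) (Mf U) := (dM ((0, 1) : ℂ × ℂ)).restrictScalars ℤ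

/-- `∂/∂t` on the field of fractions -/
def dt : Derivation ℤ (Mf U) (Mf U) := (dM ((1, 0) : ℂ × ℂ)).restrictScalars ℤ

/-- `e^{iψ}, G(ψ), G'(ψ), …` -/
def yfun (G : ℂ → ℂ) (ψ : ℂ × ℂ → ℂ) : ℕ → ℂ × ℂ → ℂ
  | 0 => fun u => Complex.exp (Complex.I * ψ u)
  | k + 1 => fun u => iteratedDeriv k G (ψ u)

lemma analyticAt_iteratedDeriv {G : ℂ → ℂ} {z : ℂ} (h : AnalyticAt ℂ G z) (k : ℕ) :
    AnalyticAt ℂ (iteratedDeriv k G) z := by
  induction k with
  | zero => simpa [iteratedDeriv_zero] using h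
  | succ k ih =>
    rw [iteratedDeriv_succ]
    exact ih.deriv

omit hU in
lemma yfun_an {G : ℂ → ℂ} {ψ : ℂ × ℂ → ℂ} (hψ : AnalyticOnNhd ℂ ψ U)
    (hG : ∀ u ∈ U, AnalyticAt ℂ G (ψ u)) (k : ℕ) : AnalyticOnNhd ℂ (yfun G ψ k) U := by
  intro u hu
  cases k with
  | zero => exact (analyticAt_const.mul (hψ u hu)).cexp
  | succ k =>
    have h : AnalyticAt ℂ (fun u => iteratedDeriv k G (ψ u)) u :=
      AnalyticAt.fun_comp (analyticAt_iteratedDeriv (hG u hu) k) (hψ u hu)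
    exact h

lemma fderiv_comp1 {F : ℂ → ℂ} {ψ : ℂ × ℂ → ℂ} {u : ℂ × ℂ} (hF : AnalyticAt ℂ F (ψ u))
    (hψ : AnalyticAt ℂ ψ u) (v : ℂ × ℂ) :
    fderiv ℂ (fun u => F (ψ u)) u v = deriv F (ψ u) * fderiv ℂ ψ u v := by
  have h1 := hF.differentiableAt.hasDerivAt.comp_hasFDerivAt u hψ.differentiableAt.hasFDerivAt
  have h2 : fderiv ℂ (fun u => F (ψ u)) u = deriv F (ψ u) • fderiv ℂ ψ u := h1.fderiv
  rw [h2]
  rfl

/-- `δ (F(ψ)) = F'(ψ)` for `δ = (∂ₜψ)⁻¹ ∂ₜ`. -/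
lemma dt_comp {F : ℂ → ℂ} {ψ : ℂ × ℂ → ℂ} (hψ : AnalyticOnNhd ℂ ψ U)
    (hF : ∀ u ∈ U, AnalyticAt ℂ F (ψ u)) (v : ℂ × ℂ)
    (h1 : AnalyticOnNhd ℂ (fun u => F (ψ u)) U) (h2 : AnalyticOnNhd ℂ (fun u => deriv F (ψ u)) U) :
    dM v (toM (fun u => F (ψ u)) h1) = toM (fun u => deriv F (ψ u)) h2 * dM v (toM ψ hψ) := by
  rw [dM_toM, dM_toM, toM_mul]
  apply toM_congr
  intro u hu
  exact fderiv_comp1 (hF u hu) (hψ u hu) v

variable {G : ℂ → ℂ} {ψ : ℂ × ℂ → ℂ}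

lemma yy_eq (hψ : AnalyticOnNhd ℂ ψ U) (hG : ∀ u ∈ U, AnalyticAt ℂ G (ψ u))
    (h0 : dt (toM ψ hψ) ≠ 0) (k : ℕ) :
    yy ((dt (toM ψ hψ))⁻¹ • dt) (toM (yfun G ψ 0) (yfun_an hψ hG 0))
      (toM (yfun G ψ 1) (yfun_an hψ hG 1)) k = toM (yfun G ψ k) (yfun_an hψ hG k) := by
  cases k with
  | zero => rfl
  | succ k =>
    induction k with
    | zero => rfl
    | succ k ih =>
      show (⇑((dt (toM ψ hψ))⁻¹ • dt))^[k + 1] (toM (yfun G ψ 1) (yfun_an hψ hG 1)) = _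
      rw [Function.iterate_succ_apply']
      have h1 : (⇑((dt (toM ψ hψ))⁻¹ • dt))^[k] (toM (yfun G ψ 1) (yfun_an hψ hG 1)) =
        toM (yfun G ψ (k + 1)) (yfun_an hψ hG (k + 1)) := ih
      rw [h1]
      show (dt (toM ψ hψ))⁻¹ * dM _ (toM (yfun G ψ (k + 1)) (yfun_an hψ hG (k + 1))) = _
      have h2 : dM ((1, 0) : ℂ × ℂ) (toM (yfun G ψ (k + 1)) (yfun_an hψ hG (k + 1))) =
          toM (yfun G ψ (k + 2)) (yfun_an hψ hG (k + 2)) * dM ((1, 0) : ℂ × ℂ) (toM ψ hψ) := by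
        have h3 : AnalyticOnNhd ℂ (fun u => deriv (iteratedDeriv k G) (ψ u)) U := fun u hu =>
          AnalyticAt.fun_comp (analyticAt_iteratedDeriv (hG u hu) k).deriv (hψ u hu)
        have h4 := dt_comp (F := iteratedDeriv k G) hψ
          (fun u hu => analyticAt_iteratedDeriv (hG u hu) k) ((1, 0) : ℂ × ℂ)
          (yfun_an hψ hG (k + 1)) h3
        have h5 : toM (fun u => deriv (iteratedDeriv k G) (ψ u)) h3 =
            toM (yfun G ψ (k + 2)) (yfun_an hψ hG (k + 2)) := by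
          apply toM_congr
          intro u hu
          show deriv (iteratedDeriv k G) (ψ u) = iteratedDeriv (k + 1) G (ψ u)
          rw [iteratedDeriv_succ]
        rw [← h5]
        exact h4
      rw [h2]
      have h6 : dM ((1, 0) : ℂ × ℂ) (toM ψ hψ) = dt (toM ψ hψ) := rfl
      rw [h6]
      field_simp

/-- A relation between the jets in the field of fractions is a relation between functions. -/
lemma exists_rel (hψ : AnalyticOnNhd ℂ ψ U) (hG : ∀ u ∈ U, AnalyticAt ℂ G (ψ u)) {m : ℕ}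
    (h : ¬ AlgebraicIndependent ℂ
      (fun i : Fin m => toM (yfun G ψ i) (yfun_an hψ hG i))) :
    ∃ P : MvPolynomial (Fin m) ℂ, P ≠ 0 ∧ ∀ u ∈ U, eval (fun i : Fin m => yfun G ψ i u) P = 0 := by
  by_contra hcon
  push Not at hcon
  apply h
  have h1 : Ind U (fun i : Fin m => yfun G ψ i) := by
    intro P hP
    by_contra hP0
    obtain ⟨u, hu, hne⟩ := hcon P hP0
    exact hne (hP u hu)
  have h2 := (ind_iff (fun i : Fin m => yfun_an hψ hG (i : ℕ))).1 h1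
  exact h2.map' (f := (Algebra.algHom ℂ (An U) (Mf U))) (IsFractionRing.injective (An U) (Mf U))

lemma dt_alg (c : ℂ) : dt (algebraMap ℂ (Mf U) c) = 0 := (dM ((1, 0) : ℂ × ℂ)).map_algebraMap c

lemma ds_alg (c : ℂ) : ds (algebraMap ℂ (Mf U) c) = 0 := (dM ((0, 1) : ℂ × ℂ)).map_algebraMap c

/-- From the finiteness of the jets of the curve to a relation for the support function. -/
theorem rel_of_finite (hψ : AnalyticOnNhd ℂ ψ U) (hG : ∀ u ∈ U, AnalyticAt ℂ G (ψ u))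
    (h0 : dt (toM ψ hψ) ≠ 0) {p q : Mf U}
    (hp : p = (toM (yfun G ψ 1) (yfun_an hψ hG 1) + algebraMap ℂ (Mf U) Complex.I *
      toM (yfun G ψ 2) (yfun_an hψ hG 2)) * toM (yfun G ψ 0) (yfun_an hψ hG 0))
    (hq : q = (toM (yfun G ψ 1) (yfun_an hψ hG 1) - algebraMap ℂ (Mf U) Complex.I *
      toM (yfun G ψ 2) (yfun_an hψ hG 2)) * (toM (yfun G ψ 0) (yfun_an hψ hG 0))⁻¹)
    (hq0 : dt q ≠ 0) {N : ℕ}
    (hN : ∀ (m : ℕ) (f : Fin m → Mf U),
      (∀ i, f i ∈ IntermediateField.adjoin ℂ (insert q (Set.range (jet dt q p)))) →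
        AlgebraicIndependent ℂ f → m ≤ N) :
    ∃ P : MvPolynomial (Fin (N + 2)) ℂ, P ≠ 0 ∧
      ∀ u ∈ U, eval (fun i : Fin (N + 2) => yfun G ψ i u) P = 0 := by
  apply exists_rel hψ hG
  intro hind
  set δ : Derivation ℤ (Mf U) (Mf U) := (dt (toM ψ hψ))⁻¹ • dt with hδ
  have hyy := yy_eq hψ hG h0
  rw [← hδ] at hyy
  have hd : ∀ x : Mf U, dt x = dt (toM ψ hψ) * δ x := by
    intro x
    show dt x = dt (toM ψ hψ) * ((dt (toM ψ hψ))⁻¹ * dt x)
    field_simp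
  have hj : ∀ k, jet dt q p k = jet δ q p k := fun k => jet_smul h0 hd q p k
  have hj' : jet dt q p = jet δ q p := funext hj
  rw [hj'] at hN
  have hE0 : toM (yfun G ψ 0) (yfun_an hψ hG 0) ≠ 0 := by
    obtain ⟨u, hu⟩ := hU.n
    exact toM_ne_zero hu (Complex.exp_ne_zero _)
  have hδK : ∀ k : ℂ, δ (algebraMap ℂ (Mf U) k) = 0 := by
    intro k
    show (dt (toM ψ hψ))⁻¹ * dt (algebraMap ℂ (Mf U) k) = 0
    rw [dt_alg, mul_zero]
  have hδE : δ (toM (yfun G ψ 0) (yfun_an hψ hG 0)) = algebraMap ℂ (Mf U) Complex.I *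
      toM (yfun G ψ 0) (yfun_an hψ hG 0) := by
    have h3 : AnalyticOnNhd ℂ (fun u => deriv (fun z => Complex.exp (Complex.I * z)) (ψ u)) U := by
      intro u hu
      have h4 : AnalyticAt ℂ (fun z : ℂ => Complex.exp (Complex.I * z)) (ψ u) :=
        (analyticAt_const.mul analyticAt_id).cexp
      exact AnalyticAt.fun_comp h4.deriv (hψ u hu)
    have h4 := dt_comp (F := fun z => Complex.exp (Complex.I * z)) hψ
      (fun u hu => (analyticAt_const.mul analyticAt_id).cexp) ((1, 0) : ℂ × ℂ)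
      (yfun_an hψ hG 0) h3
    have h5 : toM (fun u => deriv (fun z => Complex.exp (Complex.I * z)) (ψ u)) h3 =
        algebraMap ℂ (Mf U) Complex.I * toM (yfun G ψ 0) (yfun_an hψ hG 0) := by
      rw [← toM_const, toM_mul]
      apply toM_congr
      intro u hu
      have h6 : HasDerivAt (fun z => Complex.exp (Complex.I * z))
          (Complex.exp (Complex.I * ψ u) * (Complex.I * 1)) (ψ u) :=
        ((hasDerivAt_id (ψ u)).const_mul Complex.I).cexp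
      show deriv (fun z => Complex.exp (Complex.I * z)) (ψ u) =
        Complex.I * Complex.exp (Complex.I * ψ u)
      rw [h6.deriv]
      ring
    rw [h5] at h4
    show (dt (toM ψ hψ))⁻¹ * dM ((1, 0) : ℂ × ℂ) (toM (yfun G ψ 0) (yfun_an hψ hG 0)) = _
    have h6 : dM ((1, 0) : ℂ × ℂ) (toM ψ hψ) = dt (toM ψ hψ) := rfl
    rw [h6] at h4
    have h7 : dM ((1, 0) : ℂ × ℂ) (toM (yfun G ψ 0) (yfun_an hψ hG 0)) =
      algebraMap ℂ (Mf U) Complex.I * toM (yfun G ψ 0) (yfun_an hψ hG 0) * dt (toM ψ hψ) := h4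
    rw [h7]
    field_simp
  have h1 : δ (toM (yfun G ψ 1) (yfun_an hψ hG 1)) = toM (yfun G ψ 2) (yfun_an hψ hG 2) := hyy 2
  have hq1 : δ q ≠ 0 := by
    intro h2
    apply hq0
    rw [hd, h2, mul_zero]
  have hfin := finite_yy (I := Complex.I) Complex.I_sq hδK hE0 hδE
    (H := toM (yfun G ψ 1) (yfun_an hψ hG 1)) (p := p) (q := q) (by rw [h1]; exact hp)
    (by rw [h1]; exact hq) hq1 hN (N + 2) (by
      have h2 : (fun i : Fin (N + 2) => yy δ (toM (yfun G ψ 0) (yfun_an hψ hG 0))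
          (toM (yfun G ψ 1) (yfun_an hψ hG 1)) i) =
          fun i : Fin (N + 2) => toM (yfun G ψ i) (yfun_an hψ hG i) := funext fun i => hyy i
      rw [h2]
      exact hind)
  omega

end

end Vale.Agent.P097.H367.FR
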