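import Mathlib
import Vale.Agent.P097.H367.FR.Field
import Vale.Agent.P097.H456.Fct.Defs

/-!
# Analytic lemmas for the row F4
-/

namespace Vale.Agent.P097.H367.FR

open Set Filter Topology Metric Vale.Agent.P097.H365 Vale.Agent.P097.H690
open Complex (exp I)
open Vale.Agent.P097.H456.Fct (Gl Tv Box)

noncomputable section

/-- `(1 - e^{-2iz}) / z`, extended. -/
def FF : ℂ → ℂ := dslope (fun z => 1 - exp (-2 * I * z)) 0

lemma FF_mul (z : ℂ) : z * FF z = 1 - exp (-2 * I * z) := by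
  have h := sub_smul_dslope (fun z => 1 - exp (-2 * I * z)) 0 z
  simp only [sub_zero, smul_eq_mul, mul_zero, Complex.exp_zero, sub_self] at h
  exact h

lemma FF_zero : FF 0 = 2 * I := by
  rw [FF, dslope_same]
  have h : HasDerivAt (fun z => 1 - exp (-2 * I * z)) (-(exp (-2 * I * 0) * (-2 * I * 1))) 0 := by
    have h1 : HasDerivAt (fun z => exp (-2 * I * z)) (exp (-2 * I * 0) * (-2 * I * 1)) 0 :=
      ((hasDerivAt_id (0 : ℂ)).const_mul (-2 * I)).cexp
    exact h1.const_sub 1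
  rw [h.deriv]
  simp

lemma FF_an (z : ℂ) : AnalyticAt ℂ FF z := by
  have h1 : Differentiable ℂ (fun z => 1 - exp (-2 * I * z)) := by
    intro z
    fun_prop
  have h2 : DifferentiableOn ℂ FF univ :=
    (Complex.differentiableOn_dslope univ_mem).2 h1.differentiableOn
  exact (differentiableOn_univ.1 h2).analyticAt z

/-- The `κ` of a glancing letter is `s ^ N` times a unit. -/
lemma kap_gl {U : Set (ℂ × ℂ)} {N : ℕ} {a a' : ℂ × ℂ → ℂ} (ha : AnalyticOnNhd ℂ a U)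
    (h : Gl U N a a') : ∃ x : ℂ × ℂ → ℂ, AnalyticOnNhd ℂ x U ∧
      (∀ u ∈ U, (I * exp (I * a u))⁻¹ - (I * exp (I * a' u))⁻¹ = u.2 ^ N * x u) ∧
      ∀ u ∈ U, u.2 ^ N = 0 → x u ≠ 0 := by
  obtain ⟨k, D, hD, hD0, hk⟩ := h
  have hs : AnalyticOnNhd ℂ (fun u : ℂ × ℂ => u.2 ^ N * D u) U := by
    intro u hu
    exact (analyticAt_snd.pow N).mul (hD u hu)
  refine ⟨fun u => -I * exp (-(I * a u)) * (D u * FF (u.2 ^ N * D u)), ?_, ?_, ?_⟩
  · intro u hu
    have h1 : AnalyticAt ℂ (fun u => FF (u.2 ^ N * D u)) u := (FF_an _).fun_comp (hs u hu)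
    exact (analyticAt_const.mul ((analyticAt_const.mul (ha u hu)).neg).cexp).mul
      ((hD u hu).mul h1)
  · intro u hu
    have h1 := FF_mul (u.2 ^ N * D u)
    have h2 : a' u = a u + (2 * Real.pi * k + 2 * u.2 ^ N * D u) := by
      rw [← hk u hu]
      ring
    have h3 : (I * exp (I * a' u))⁻¹ = -I * exp (-(I * a u)) * exp (-2 * I * (u.2 ^ N * D u)) := by
      have h4 : -(I * (a u + (2 * Real.pi * k + 2 * u.2 ^ N * D u))) =
          -(I * a u) + -2 * I * (u.2 ^ N * D u) + ((-k : ℤ) : ℂ) * (2 * Real.pi * I) := by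
        push_cast
        ring
      rw [mul_inv, Complex.inv_I, ← Complex.exp_neg, h2, h4,
        Complex.exp_add _ (((-k : ℤ) : ℂ) * (2 * Real.pi * I)),
        Complex.exp_int_mul_two_pi_mul_I, mul_one, Complex.exp_add]
      ring
    have h4 : (I * exp (I * a u))⁻¹ = -I * exp (-(I * a u)) := by
      rw [mul_inv, Complex.inv_I, ← Complex.exp_neg]
    rw [h3, h4]
    linear_combination (-I * exp (-(I * a u))) * (-h1)
  · intro u hu h0
    show -I * exp (-(I * a u)) * (D u * FF (u.2 ^ N * D u)) ≠ 0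
    rw [h0, zero_mul, FF_zero]
    exact mul_ne_zero (mul_ne_zero (neg_ne_zero.2 Complex.I_ne_zero) (Complex.exp_ne_zero _))
      (mul_ne_zero (hD0 u hu) (mul_ne_zero two_ne_zero Complex.I_ne_zero))

lemma kap_tv {x y : ℂ} (h : Complex.sin ((y - x) / 2) ≠ 0) :
    (I * exp (I * x))⁻¹ - (I * exp (I * y))⁻¹ ≠ 0 := by
  intro h0
  have h1 := sub_eq_zero.1 h0
  have h2 := mul_left_cancel₀ Complex.I_ne_zero (inv_injective h1)
  apply h
  obtain ⟨n, hn⟩ := Complex.exp_eq_exp_iff_exists_int.1 h2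
  have h3 : (y - x) / 2 = ((-n : ℤ) : ℂ) * Real.pi := by
    have h4 : I * (x - y - n * (2 * Real.pi)) = 0 := by linear_combination hn
    have h5 := (mul_eq_zero.1 h4).resolve_left Complex.I_ne_zero
    push_cast
    linear_combination -(1 / 2) * h5
  rw [h3, Complex.sin_int_mul_pi]

section words

variable {U : Set (ℂ × ℂ)} [hU : H690.Dom U]

omit hU in
lemma an_eia {a : ℂ × ℂ → ℂ} (ha : AnalyticOnNhd ℂ a U) :
    AnalyticOnNhd ℂ (fun u => I * exp (I * a u)) U := fun u hu =>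
  analyticAt_const.mul (analyticAt_const.mul (ha u hu)).cexp

omit hU in
lemma an_m {a q : ℂ × ℂ → ℂ} (ha : AnalyticOnNhd ℂ a U) (hq : AnalyticOnNhd ℂ q U) :
    AnalyticOnNhd ℂ (fun u => 2 * q u * exp (I * a u)) U := fun u hu =>
  (analyticAt_const.mul (hq u hu)).mul (analyticAt_const.mul (ha u hu)).cexp

/-- The area form of the line `(a, q)`. -/
lemma area_toM {a q : ℂ × ℂ → ℂ} (ha : AnalyticOnNhd ℂ a U) (hq : AnalyticOnNhd ℂ q U)
    {u : ℂ × ℂ} (hu : u ∈ U)
    (h : fderiv ℂ a u (1, 0) * fderiv ℂ q u (0, 1) -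
      fderiv ℂ a u (0, 1) * fderiv ℂ q u (1, 0) ≠ 0) :
    area ds dt (toM (fun u => I * exp (I * a u)) (an_eia ha))
      (toM (fun u => 2 * q u * exp (I * a u)) (an_m ha hq)) ≠ 0 := by
  intro h0
  have he : toM (fun u => I * exp (I * a u)) (an_eia ha) ≠ 0 :=
    toM_ne_zero hu (mul_ne_zero Complex.I_ne_zero (Complex.exp_ne_zero _))
  rw [area, div_eq_zero_iff, or_iff_left (pow_ne_zero 2 he), neg_eq_zero] at h0
  have e1 : ∀ v : ℂ × ℂ, ∀ u ∈ U, fderiv ℂ (fun u => I * exp (I * a u)) u v =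
      -(exp (I * a u) * fderiv ℂ a u v) := by
    intro v u hu
    have h1 : HasFDerivAt (fun u => I * exp (I * a u))
        (I • (exp (I * a u) • (I • fderiv ℂ a u))) u :=
      (((ha u hu).differentiableAt.hasFDerivAt.const_mul I).cexp).const_mul I
    rw [h1.fderiv]
    simp only [smul_apply, smul_eq_mul]
    linear_combination exp (I * a u) * fderiv ℂ a u v * Complex.I_sq
  have e2 : ∀ v : ℂ × ℂ, ∀ u ∈ U, fderiv ℂ (fun u => 2 * q u * exp (I * a u)) u v =
      exp (I * a u) * (2 * fderiv ℂ q u v + 2 * q u * I * fderiv ℂ a u v) := by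
    intro v u hu
    have h1 : HasFDerivAt (fun u => 2 * q u * exp (I * a u))
        ((2 * q u) • (exp (I * a u) • (I • fderiv ℂ a u)) +
          exp (I * a u) • ((2 : ℂ) • fderiv ℂ q u)) u :=
      ((hq u hu).differentiableAt.hasFDerivAt.const_mul 2).mul
        (((ha u hu).differentiableAt.hasFDerivAt.const_mul I).cexp)
    rw [h1.fderiv]
    simp only [add_apply, smul_apply, smul_eq_mul]
    ring
  have e3 : (ds (toM (fun u => 2 * q u * exp (I * a u)) (an_m ha hq)) : Mf U) =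
      toM _ (an_dir (an_m ha hq) (0, 1)) := dM_toM _ _
  have e4 : (dt (toM (fun u => 2 * q u * exp (I * a u)) (an_m ha hq)) : Mf U) =
      toM _ (an_dir (an_m ha hq) (1, 0)) := dM_toM _ _
  have e5 : (ds (toM (fun u => I * exp (I * a u)) (an_eia ha)) : Mf U) =
      toM _ (an_dir (an_eia ha) (0, 1)) := dM_toM _ _
  have e6 : (dt (toM (fun u => I * exp (I * a u)) (an_eia ha)) : Mf U) =
      toM _ (an_dir (an_eia ha) (1, 0)) := dM_toM _ _
  rw [e3, e4, e5, e6, toM_mul, toM_mul, toM_sub, toM_eq_zero] at h0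
  have h1 := h0 u hu
  rw [e1 _ u hu, e1 _ u hu, e2 _ u hu, e2 _ u hu] at h1
  apply h
  have h2 : exp (I * a u) ^ 2 * (fderiv ℂ a u (1, 0) * fderiv ℂ q u (0, 1) -
      fderiv ℂ a u (0, 1) * fderiv ℂ q u (1, 0)) = 0 := by
    linear_combination -(1 / 2) * h1
  exact (mul_eq_zero.1 h2).resolve_left (pow_ne_zero 2 (Complex.exp_ne_zero _))

/-- A letter with `κ' ≠ 0` at a point of the axis is not equivalent to a glancing letter. -/
lemma not_equiv {x k' Q : ℂ × ℂ → ℂ} (hx : AnalyticOnNhd ℂ x U) (hk : AnalyticOnNhd ℂ k' U)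
    (hQ : AnalyticOnNhd ℂ Q U) {N : ℕ} (hN : 1 ≤ N) {u : ℂ × ℂ} (hu : u ∈ U) (h2 : u.2 = 0)
    (hxu : x u ≠ 0) (hku : k' u ≠ 0) (hQu : fderiv ℂ Q u (1, 0) ≠ 0)
    (hs : AnalyticOnNhd ℂ (fun u : ℂ × ℂ => u.2 ^ N * x u) U)
    (hV : vf ds dt (slp ds dt (toM Q hQ)) (toM k' hk / toM (fun u => u.2 ^ N * x u) hs) = 0) :
    False := by
  have hinj : Function.Injective (algebraMap (H365.An U) (Mf U)) := IsFractionRing.injective _ _
  have hsn : AnalyticOnNhd ℂ (fun u : ℂ × ℂ => u.2) U := fun u _ => analyticAt_snd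
  have hne : ∃ v ∈ U, v.2 ≠ 0 := by
    by_contra hcon
    push Not at hcon
    have h3 : ∀ᶠ s in 𝓝 (0 : ℂ), (u.1, u.2 + s) ∈ U := by
      have h4 : Tendsto (fun s : ℂ => (u.1, u.2 + s)) (𝓝 0) (𝓝 u) := by
        have h5 : Continuous (fun s : ℂ => (u.1, u.2 + s)) := by fun_prop
        have h6 := h5.tendsto 0
        simpa using h6
      exact h4 (hU.o.mem_nhds hu)
    have h4 : ∀ᶠ s in 𝓝 (0 : ℂ), s = 0 := by
      filter_upwards [h3] with s hs
      have := hcon _ hs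
      simpa [h2] using this
    have h5 : ∀ᶠ s in 𝓝[≠] (0 : ℂ), False := by
      filter_upwards [h4.filter_mono nhdsWithin_le_nhds, self_mem_nhdsWithin] with s hs hs'
      exact hs' hs
    exact (h5.exists).elim fun _ h => h
  obtain ⟨v, hv, hv2⟩ := hne
  have key := eval_zero' (R := H365.An U) (M := Mf U) (d1 := ds) (d2 := dt)
    (δ1 := (dA ((0, 1) : ℂ × ℂ)).restrictScalars ℤ)
    (δ2 := (dA ((1, 0) : ℂ × ℂ)).restrictScalars ℤ) hinj
    (fun r => dM_algebraMap _ r) (fun r => dM_algebraMap _ r) (C := ℂ)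
    (evA (⟨u, hu⟩ : U)).toRingHom (s := toAn (fun u : ℂ × ℂ => u.2) hsn) (x := toAn x hx)
    (k' := toAn k' hk) (Q := toAn Q hQ) (N := N) hN
    (by
      intro h0
      have := congrArg (evA (⟨v, hv⟩ : U)) h0
      rw [evA_toAn, map_zero] at this
      exact hv2 this)
    (by
      show dA ((0, 1) : ℂ × ℂ) (toAn (fun u : ℂ × ℂ => u.2) hsn) = 1
      rw [dA_toAn]
      refine H365.An.ext' fun w => ?_
      rw [evA_toAn, map_one]
      have h3 : HasFDerivAt (fun u : ℂ × ℂ => u.2) (ContinuousLinearMap.snd ℂ ℂ ℂ) (w : ℂ × ℂ) :=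
        hasFDerivAt_snd
      rw [h3.fderiv]
      rfl)
    (by
      show dA ((1, 0) : ℂ × ℂ) (toAn (fun u : ℂ × ℂ => u.2) hsn) = 0
      rw [dA_toAn]
      refine H365.An.ext' fun w => ?_
      rw [evA_toAn, map_zero]
      have h3 : HasFDerivAt (fun u : ℂ × ℂ => u.2) (ContinuousLinearMap.snd ℂ ℂ ℂ) (w : ℂ × ℂ) :=
        hasFDerivAt_snd
      rw [h3.fderiv]
      rfl)
    h2 hxu
    (by
      show evA (⟨u, hu⟩ : U) (dA ((1, 0) : ℂ × ℂ) (toAn Q hQ)) ≠ 0
      rw [dA_toAn, evA_toAn]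
      exact hQu)
    (by exact_mod_cast (show N ≠ 0 by omega)) hV
  exact hku key

end words

end

end Vale.Agent.P097.H367.FR
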