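import Mathlib
import Vale.Agent.P097.H367.FR.F4a
import Vale.Agent.P097.H690.Fct.Nat

/-!
# Row F4: finite type from the closed word
-/

namespace Vale.Agent.P097.H367.FR

open Set Filter Topology Metric Vale.Agent.P097.H365 Vale.Agent.P097.H690
open Complex (exp I)
open Vale.Agent.P097.TA
open Vale.Agent.P097.H202 (Str isOpen_Str convex_Str Str_mono)
open Vale.Agent.P097.H456.Fct (Gl Tv Box nat Ctx NBox Star SWord Word HFin Rel nat_zero mem_Box0
  jac jac_base)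

noncomputable section

lemma an_inv {U : Set (ℂ × ℂ)} {F : ℂ × ℂ → ℂ} (hF : AnalyticOnNhd ℂ F U)
    (h0 : ∀ u ∈ U, F u ≠ 0) : AnalyticOnNhd ℂ (fun u => (F u)⁻¹) U :=
  fun u hu => (hF u hu).inv (h0 u hu)

lemma toM_inv {U : Set (ℂ × ℂ)} [hU : H690.Dom U] {F : ℂ × ℂ → ℂ} (hF : AnalyticOnNhd ℂ F U)
    (h0 : ∀ u ∈ U, F u ≠ 0) :
    (toM F hF)⁻¹ = toM (fun u => (F u)⁻¹) (an_inv hF h0) := by
  refine inv_eq_of_mul_eq_one_right ?_
  rw [toM_mul, ← toM_one]
  apply toM_congr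
  intro u hu
  exact mul_inv_cancel₀ (h0 u hu)

/-- The identity theorem: a relation along a letter gives a relation for `H`. -/
theorem hfin_of_rel {κ Λ : ℝ} {H Φ : ℂ → ℂ} {r e : ℝ} {α p : ℂ → ℂ → ℂ} {J : ℂ → ℂ}
    (T : Ctx κ Λ H Φ r e α p J) {N n : ℕ} {t0 : ℝ} {r0 : ℝ} (nb : NBox H r e α p N n t0 r0)
    {j : ℕ} (hj : j < n) {m : ℕ} {P : MvPolynomial (Fin (m + 2)) ℂ} (hP : P ≠ 0)
    (h : ∀ u ∈ Box t0 r0, MvPolynomial.eval (fun i : Fin (m + 2) =>
      yfun H (H456.Fct.mid (nat α N j) (nat α N (j + 1))) i u) P = 0) : HFin κ H := by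
  refine ⟨m, P, hP, ?_⟩
  obtain ⟨h', ρ, L, HH, lam, l, φ, T0⟩ := T.ld
  set ψ := H456.Fct.mid (nat α N j) (nat α N (j + 1)) with hψ
  have hu0 : ((t0 : ℂ), (0 : ℂ)) ∈ Box t0 r0 := mem_Box0 nb.pos
  set z0 : ℂ := ψ ((t0 : ℂ), 0) with hz0
  have hz0' : z0 = α t0 0 := H456.Fct.mid_zero nb.N1 _ _ _
  have hmem : z0 ∈ Str κ := by
    rw [hz0']
    have h1 : ((t0 : ℂ), (0 : ℂ)) ∈ WW 0 r e := by
      have := nb.mem _ hu0 0 (Nat.zero_le _)
      have hN := nb.N1
      simpa [zero_pow (show N ≠ 0 by omega)] using this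
    exact Str_mono (by linarith [T0.κ0]) (T.ln.mem _ _ h1)
  set F : ℂ → ℂ := fun z => MvPolynomial.eval
    (Fin.cons (exp (I * z)) fun i : Fin (m + 1) => iteratedDeriv i H z) P with hF
  have hFan : AnalyticOnNhd ℂ F (Str κ) := by
    intro z hz
    have hH : AnalyticAt ℂ H z := T0.dH.analyticAt ((isOpen_Str κ).mem_nhds hz)
    refine AnalyticAt.aeval_mvPolynomial (A := ℂ)
      (f := fun z => Fin.cons (exp (I * z)) fun i : Fin (m + 1) => iteratedDeriv i H z) ?_ P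
    intro i
    refine Fin.cases ?_ (fun i => ?_) i
    · simp only [Fin.cons_zero]
      exact (analyticAt_const.mul analyticAt_id).cexp
    · simp only [Fin.cons_succ]
      exact analyticAt_iteratedDeriv hH i
  have hFψ : ∀ u ∈ Box t0 r0, F (ψ u) = 0 := by
    intro u hu
    rw [← h u hu, hF]
    show MvPolynomial.eval _ P = MvPolynomial.eval _ P
    have h1 : (Fin.cons (exp (I * ψ u)) fun i : Fin (m + 1) => iteratedDeriv i H (ψ u) :
        Fin (m + 2) → ℂ) = fun i : Fin (m + 2) => yfun H ψ i u := by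
      funext i
      refine Fin.cases ?_ (fun i => ?_) i
      · rfl
      · rfl
    rw [h1]
  have hd : HasDerivAt (fun t : ℂ => ψ (t, 0)) (fderiv ℂ ψ ((t0 : ℂ), 0) (1, 0)) (t0 : ℂ) :=
    H456.Fct.fderiv_10 (word_mid nb.sw.toWord hj _ hu0)
  have hne : fderiv ℂ ψ ((t0 : ℂ), 0) (1, 0) ≠ 0 := sword_mid_ne nb.sw hj hu0
  have h1 : Tendsto (fun t : ℂ => ψ (t, 0)) (𝓝[≠] (t0 : ℂ)) (𝓝[≠] z0) := hd.tendsto_nhdsNE hne
  have h2 : ∀ᶠ t in 𝓝[≠] (t0 : ℂ), F (ψ (t, 0)) = 0 := by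
    have h3 : ∀ᶠ t in 𝓝 (t0 : ℂ), t ∈ ball (t0 : ℂ) r0 := ball_mem_nhds _ nb.pos
    filter_upwards [h3.filter_mono nhdsWithin_le_nhds] with t ht
    exact hFψ _ ⟨ht, mem_ball_self nb.pos⟩
  have h3 : ∃ᶠ z in 𝓝[≠] z0, F z = 0 := h1.frequently h2.frequently
  have h4 := hFan.eqOn_zero_of_preconnected_of_frequently_eq_zero
    (convex_Str κ).isPreconnected hmem h3
  exact fun z hz => h4 hz

/-- **F4: finite type from the closed word.** -/
theorem f4 : H456.Fct.F4 := by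
  intro κ Λ H Φ r e α p J T N n t0 r0 M a q nb st
  classical
  have hU : H690.Dom (Box (t0 : ℂ) r0) := H690.Dom.Box t0 nb.pos
  set U := Box (t0 : ℂ) r0 with hUdef
  have hu0 : ((t0 : ℂ), (0 : ℂ)) ∈ U := mem_Box0 nb.pos
  obtain ⟨jt, hjt, htv⟩ := st.tv
  have hn : 0 < n := by omega
  set Pn := Pm U (fun _ => H) (nat α N) with hPn
  set Qn := Qm U (fun _ => H) (nat α N) with hQn
  set En := Em U (nat α N) with hEn
  set Ps := Pm U M a with hPs
  set Qs := Qm U M a with hQs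
  set Es := Em U a with hEs
  have hch : IsChain (ds (U := U)) dt n Pn Qn En := sword_isChain nb.sw (0, 1) (1, 0)
  have hch' : IsChain (ds (U := U)) dt n Ps Qs Es := sword_isChain st.sw (0, 1) (1, 0)
  have hout := star_outer (U := U) st
  have hq : ∀ j < n, dt (Qn j) ≠ 0 := fun j hj => sword_dq_ne nb.sw hj
  have hq' : ∀ j < n, dt (Qs j) ≠ 0 := fun j hj => sword_dq_ne st.sw hj
  -- the area form
  have hA : area ds dt (En 0) (Pn 0 - En 0 ^ 2 * Qn 0) ≠ 0 := by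
    obtain ⟨u, hu, hu2⟩ := exists_s_ne hU
    have e1 : Pn 0 - En 0 ^ 2 * Qn 0 = Mm U (nat α N) (nat p N) 0 := word_left nb.sw.toWord hn
    rw [e1, hEn, Em_eq nb.sw.toWord (Nat.zero_le n), Mm_eq nb.sw.toWord (Nat.zero_le n)]
    refine area_toM (nb.sw.aA 0 (Nat.zero_le n)) (nb.sw.qA 0 (Nat.zero_le n)) hu ?_
    have h1 := nb.mem u hu 0 (Nat.zero_le n)
    exact jac_base T nb.N1 h1 hu2
  -- the slopes of the natural letters
  have hsl : ∀ i < n, ∀ j < n, i ≠ j → slp ds dt (Qn i) ≠ slp ds dt (Qn j) := by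
    intro i hi j hj hij h0
    exact nat_slope T nb hi hj hij (neg_injective h0)
  set bad : Finset ℕ := (Finset.range n).filter (fun i => ¬ Tv U (a i) (a (i + 1))) with hbad
  have hcard : bad.card < n := by
    have h1 : bad ⊂ Finset.range n := by
      refine (Finset.ssubset_iff_of_subset (Finset.filter_subset _ _)).2 ⟨jt, by simpa using hjt, ?_⟩
      intro h2
      exact (Finset.mem_filter.1 h2).2 htv
    have h2 := Finset.card_lt_card h1
    rwa [Finset.card_range] at h2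
  have hgood : ∀ i < n, i ∉ bad → ∀ j < n, slp ds dt (Qs i) = slp ds dt (Qn j) →
      vf ds dt (slp ds dt (Qn j)) (kap Es i / kap En j) ≠ 0 := by
    intro i hi hib j hj _ hV
    have htvi : Tv U (a i) (a (i + 1)) := by
      by_contra hcon
      exact hib (Finset.mem_filter.2 ⟨by simpa using hi, hcon⟩)
    -- the natural letter glances
    have hgl : Gl U N (nat α N j) (nat α N (j + 1)) := by
      rcases nb.sw.kind j hj with h1 | h1
      · exfalso
        apply h1 _ hu0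
        rw [nat_zero nb.N1, nat_zero nb.N1, sub_self, zero_div, Complex.sin_zero]
      · exact h1
    obtain ⟨x, hx, hxe, hx0⟩ := kap_gl (nb.sw.aA j hj.le) hgl
    have hN0 : N ≠ 0 := by
      have := nb.N1
      omega
    have hsx : AnalyticOnNhd ℂ (fun u : ℂ × ℂ => u.2 ^ N * x u) U := fun u hu =>
      (analyticAt_snd.pow N).mul (hx u hu)
    have en0 : ∀ (b : ℂ × ℂ → ℂ), ∀ u ∈ U, en b u ≠ 0 := fun b u _ =>
      mul_ne_zero Complex.I_ne_zero (Complex.exp_ne_zero _)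
    have e1 : kap En j = toM (fun u : ℂ × ℂ => u.2 ^ N * x u) hsx := by
      rw [kap, hEn, Em_eq nb.sw.toWord hj.le, Em_eq nb.sw.toWord hj,
        toM_inv _ (en0 _), toM_inv _ (en0 _), toM_sub]
      apply toM_congr
      intro u hu
      exact hxe u hu
    have e2 : kap Es i = toM (fun u => (en (a i) u)⁻¹ - (en (a (i + 1)) u)⁻¹)
        ((an_inv (word_en st.sw.toWord hi.le) (en0 _)).sub
          (an_inv (word_en st.sw.toWord hi) (en0 _))) := by
      rw [kap, hEs, Em_eq st.sw.toWord hi.le, Em_eq st.sw.toWord hi,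
        toM_inv _ (en0 _), toM_inv _ (en0 _), toM_sub]
    rw [e1, e2, hQn, Qm_eq nb.sw.toWord hj] at hV
    exact not_equiv hx _ (word_vq nb.sw.toWord hj) nb.N1 hu0 rfl
      (hx0 _ hu0 (by simp [hN0])) (kap_tv (htvi _ hu0)) (sword_fvq_ne nb.sw hj hu0) hsx hV
  obtain ⟨j, hj, N', hN'⟩ := exists_free (K := ℂ) hch hch' hn hn
    (fun k => ⟨0, by rw [ds_alg, map_zero]⟩) (fun k => ⟨0, by rw [dt_alg, map_zero]⟩)
    (fun x => dM_comm _ _ x) hout.1.symm
    (by
      have e1 : Pn 0 - En 0 ^ 2 * Qn 0 = Mm U (nat α N) (nat p N) 0 := word_left nb.sw.toWord hn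
      have e2 : Ps 0 - Es 0 ^ 2 * Qs 0 = Mm U a q 0 := word_left st.sw.toWord hn
      rw [e1, e2, hout.2.2.1])
    hout.2.1.symm
    (by
      have e1 : Pn (n - 1) - En (n - 1 + 1) ^ 2 * Qn (n - 1) = Mm U (nat α N) (nat p N) (n - 1 + 1) :=
        word_right nb.sw.toWord (by omega)
      have e2 : Ps (n - 1) - Es (n - 1 + 1) ^ 2 * Qs (n - 1) = Mm U a q (n - 1 + 1) :=
        word_right st.sw.toWord (by omega)
      rw [show n - 1 + 1 = n by omega] at e1 e2
      rw [e1, e2, hout.2.2.2])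
    hA hq hq' hsl bad hcard hgood
  -- the relation
  have hψ := word_mid nb.sw.toWord hj
  have hG : ∀ u ∈ U, AnalyticAt ℂ H (H456.Fct.mid (nat α N j) (nat α N (j + 1)) u) :=
    nb.sw.mA j hj
  have h0 : dt (toM (H456.Fct.mid (nat α N j) (nat α N (j + 1))) hψ) ≠ 0 := by
    have h1 : dt (toM (H456.Fct.mid (nat α N j) (nat α N (j + 1))) hψ) =
        toM _ (an_dir hψ (1, 0)) := dM_toM _ _
    rw [h1]
    exact toM_ne_zero hu0 (sword_mid_ne nb.sw hj hu0)
  have hyp : Pn j = (toM (yfun H _ 1) (yfun_an hψ hG 1) + algebraMap ℂ (Mf U) Complex.I *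
      toM (yfun H _ 2) (yfun_an hψ hG 2)) * toM (yfun H _ 0) (yfun_an hψ hG 0) := by
    rw [hPn, Pm_eq nb.sw.toWord hj, ← toM_const, toM_mul, toM_add, toM_mul]
    apply toM_congr
    intro u hu
    show (H _ + I * deriv H _) * exp _ = (iteratedDeriv 0 H _ + I * iteratedDeriv 1 H _) * exp _
    rw [iteratedDeriv_zero, iteratedDeriv_one]
  have hyq : Qn j = (toM (yfun H _ 1) (yfun_an hψ hG 1) - algebraMap ℂ (Mf U) Complex.I *
      toM (yfun H _ 2) (yfun_an hψ hG 2)) * (toM (yfun H _ 0) (yfun_an hψ hG 0))⁻¹ := by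
    rw [hQn, Qm_eq nb.sw.toWord hj, toM_inv (yfun_an hψ hG 0) (fun u _ => Complex.exp_ne_zero _),
      ← toM_const, toM_mul, toM_sub, toM_mul]
    apply toM_congr
    intro u hu
    show (H _ - I * deriv H _) * exp (-_) =
      (iteratedDeriv 0 H _ - I * iteratedDeriv 1 H _) * (exp _)⁻¹
    rw [iteratedDeriv_zero, iteratedDeriv_one, Complex.exp_neg]
  obtain ⟨P, hP0, hP⟩ := rel_of_finite hψ hG h0 hyp hyq (hq j hj) hN'
  exact hfin_of_rel T nb hj hP0 hP

end

end Vale.Agent.P097.H367.FR
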